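import Vale.Agent.P074.Core

namespace Vale.Agent.P074

open MeasureTheory Set
open scoped RealInnerProductSpace ENNReal

variable {d : ℕ} {K : Set (E d)}

/-- `T` is almost everywhere a subgradient of the Lipschitz function `φ`. -/
structure IsPot (K : Set (E d)) (L : ℝ) (φ : E d → ℝ) (T : E d → E d) : Prop where
  lip : ∀ x x', φ x - φ x' ≤ L * ‖x - x'‖
  meas : Measurable T
  ae : ∀ᵐ x ∂(unif K), ‖T x‖ ≤ L ∧ ∀ x', φ x + ⟪T x, x' - x⟫ ≤ φ x'

lemma continuous_of_lip {φ : E d → ℝ} {L : ℝ} (h : ∀ x x', φ x - φ x' ≤ L * ‖x - x'‖) :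
    Continuous φ := by
  refine (LipschitzWith.of_le_add_mul L.toNNReal fun x y => ?_).continuous
  have := h x y
  rw [dist_eq_norm]
  have h2 : L * ‖x - y‖ ≤ (L.toNNReal : ℝ) * ‖x - y‖ :=
    mul_le_mul_of_nonneg_right (Real.le_coe_toNNReal L) (norm_nonneg _)
  linarith

lemma IsPot.cont {L : ℝ} {φ : E d → ℝ} {T : E d → E d} (h : IsPot K L φ T) : Continuous φ :=
  continuous_of_lip h.lip

lemma unif_homothety (hK : Good K) {t : ℝ} (t0 : 1 / 2 ≤ t) (t1 : t ≤ 1) {a : E d} (ha : a ∈ K)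
    {A : Set (E d)} (hA : MeasurableSet A) :
    unif K ((fun b => (1 - t) • a + t • b) ⁻¹' A) ≤ 2 ^ d * unif K A := by
  have hm : MeasurableSet ((fun b : E d => (1 - t) • a + t • b) ⁻¹' A) :=
    hA.preimage (by fun_prop)
  unfold unif
  simp only [Measure.smul_apply, smul_eq_mul, Measure.restrict_apply hA, Measure.restrict_apply hm]
  rw [mul_left_comm]
  refine mul_le_mul_right ?_ _
  have h1 : (fun b : E d => (1 - t) • a + t • b) ⁻¹' A ∩ K
      ⊆ (fun b : E d => t • b) ⁻¹' ((fun c => (1 - t) • a + c) ⁻¹' (A ∩ K)) := by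
    rintro b ⟨hb1, hb2⟩
    exact ⟨hb1, hK.convex ha hb2 (by linarith) (by linarith) (by ring)⟩
  refine le_trans (measure_mono h1) ?_
  rw [Measure.addHaar_preimage_smul volume (by linarith : t ≠ 0), measure_preimage_add]
  refine mul_le_mul_left ?_ _
  rw [finrank_euclideanSpace, Fintype.card_fin]
  have tp : 0 < t := by linarith
  have h2 : |(t ^ d)⁻¹| ≤ 2 ^ d := by
    rw [abs_of_pos (by positivity), ← inv_pow]
    refine pow_le_pow_left₀ (by positivity) ?_ d
    rw [inv_le_comm₀ tp (by norm_num)]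
    linarith
  refine le_trans (ENNReal.ofReal_le_ofReal h2) (le_of_eq ?_)
  rw [ENNReal.ofReal_pow (by norm_num)]
  simp

noncomputable def seg (t : ℝ) (p : E d × E d) : E d := (1 - t) • p.1 + t • p.2

@[fun_prop]
lemma continuous_seg (t : ℝ) : Continuous (seg t : E d × E d → E d) := by unfold seg; fun_prop

lemma map_seg_le (hK : Good K) {t : ℝ} (t0 : 0 ≤ t) (t1 : t ≤ 1) :
    ((unif K).prod (unif K)).map (seg t) ≤ (2 ^ d : ℝ≥0∞) • unif K := by
  have := hK.prob
  rw [Measure.le_iff]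
  intro A hA
  have hm : MeasurableSet (seg t ⁻¹' A) := hA.preimage (continuous_seg t).measurable
  rw [Measure.map_apply (continuous_seg t).measurable hA, Measure.smul_apply, smul_eq_mul]
  rcases le_total (1 / 2) t with h | h
  · rw [Measure.prod_apply hm]
    calc ∫⁻ x, unif K (Prod.mk x ⁻¹' (seg t ⁻¹' A)) ∂(unif K)
        ≤ ∫⁻ _x, 2 ^ d * unif K A ∂(unif K) :=
          lintegral_mono_ae (hK.ae_mem.mono fun a ha => unif_homothety hK h t1 ha hA)
      _ = _ := by simp
  · rw [Measure.prod_apply_symm hm]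
    calc ∫⁻ y, unif K ((fun x => (x, y)) ⁻¹' (seg t ⁻¹' A)) ∂(unif K)
        ≤ ∫⁻ _x, 2 ^ d * unif K A ∂(unif K) := by
          refine lintegral_mono_ae (hK.ae_mem.mono fun a ha => ?_)
          have := unif_homothety hK (t := 1 - t) (by linarith) (by linarith) ha hA
          refine le_trans (le_of_eq ?_) this
          congr 1
          ext b
          simp [seg, add_comm]
      _ = _ := by simp

lemma ae_seg (hK : Good K) {t : ℝ} (t0 : 0 ≤ t) (t1 : t ≤ 1) {Q : E d → Prop}
    (h : ∀ᵐ x ∂(unif K), Q x) : ∀ᵐ p ∂((unif K).prod (unif K)), Q (seg t p) :=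
  ae_of_ae_map (continuous_seg t).measurable.aemeasurable
    ((Measure.absolutelyContinuous_of_le_smul (map_seg_le hK t0 t1)).ae_le h)

lemma integrable_seg (hK : Good K) {t : ℝ} (t0 : 0 ≤ t) (t1 : t ≤ 1) {G : E d → ℝ}
    (hG : Integrable G (unif K)) :
    Integrable (fun p => G (seg t p)) ((unif K).prod (unif K)) := by
  have h1 : Integrable G (((unif K).prod (unif K)).map (seg t)) :=
    (hG.smul_measure (c := 2 ^ d) (by simp)).mono_measure (map_seg_le hK t0 t1)
  exact h1.comp_measurable (continuous_seg t).measurable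

lemma integral_seg_le (hK : Good K) {t : ℝ} (t0 : 0 ≤ t) (t1 : t ≤ 1) {G : E d → ℝ}
    (hG : Integrable G (unif K)) (G0 : ∀ᵐ x ∂(unif K), 0 ≤ G x) :
    ∫ p, G (seg t p) ∂((unif K).prod (unif K)) ≤ 2 ^ d * ∫ x, G x ∂(unif K) := by
  have h0 := hG.smul_measure (c := 2 ^ d) (by simp)
  have h1 : Integrable G (((unif K).prod (unif K)).map (seg t)) :=
    h0.mono_measure (map_seg_le hK t0 t1)
  rw [← integral_map (continuous_seg t).measurable.aemeasurable h1.aestronglyMeasurable]
  refine le_trans (integral_mono_measure (map_seg_le hK t0 t1)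
    (Measure.ae_smul_measure G0 _) h0) (le_of_eq ?_)
  rw [integral_smul_measure]
  simp

lemma approx_sub (hK : Good K) {R L M : ℝ} (hR : ∀ x ∈ K, ‖x‖ ≤ R)
    {φ φ' : E d → ℝ} {T : E d → E d} (hT : IsPot K L φ T) (hφ' : Continuous φ')
    {G : E d → ℝ} (hG : Integrable G (unif K))
    (hsub : ∀ᵐ x ∂(unif K), ∀ x' ∈ K, φ' x + ⟪T x, x' - x⟫ - G x ≤ φ' x')
    {u : E d → ℝ} (hu : Continuous u) (u0 : ∫ x, u x ∂(unif K) = 0) (uM : ∀ x ∈ K, |u x| ≤ M)
    (N : ℕ) (N0 : 0 < N) :
    ∫ x, u x * (φ' x - φ x) ∂(unif K)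
      ≤ 2 * M * (N * 2 ^ d * ∫ x, G x ∂(unif K) + 4 * L * R / N) := by
  have := hK.prob
  have φc := hT.cont
  set δ : E d → ℝ := fun x => φ' x - φ x with hδ
  have δc : Continuous δ := by rw [hδ]; fun_prop
  have G0 : ∀ᵐ x ∂(unif K), 0 ≤ G x := by
    filter_upwards [hsub, hK.ae_mem] with x h1 h2
    have := h1 x h2
    simp at this
    linarith
  have Np : (0 : ℝ) < N := by exact_mod_cast N0
  have tk : ∀ k : ℕ, k ≤ N → 0 ≤ (k : ℝ) / N ∧ (k : ℝ) / N ≤ 1 := fun k hk =>
    ⟨by positivity, (div_le_one Np).2 (by exact_mod_cast hk)⟩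
  set P := (unif K).prod (unif K) with hP
  have good : ∀ᵐ p ∂P, ∀ k : ℕ, k ≤ N → (seg (k / N) p ∈ K ∧ 0 ≤ G (seg (k / N) p)) ∧
      (‖T (seg (k / N) p)‖ ≤ L ∧ ∀ x', φ (seg (k / N) p) + ⟪T (seg (k / N) p), x' - seg (k / N) p⟫
        ≤ φ x') ∧ ∀ x' ∈ K, φ' (seg (k / N) p) + ⟪T (seg (k / N) p), x' - seg (k / N) p⟫
          - G (seg (k / N) p) ≤ φ' x' := by
    rw [ae_all_iff]
    intro k
    by_cases hk : k ≤ N
    · have := ae_seg hK (tk k hk).1 (tk k hk).2 ((hK.ae_mem.and G0).and (hT.ae.and hsub))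
      exact this.mono fun p hp _ => hp
    · exact Filter.Eventually.of_forall fun p h => absurd h hk
  have pw : ∀ᵐ p ∂P, (u p.1 + M) * (δ p.1 - δ p.2)
      ≤ 2 * M * (∑ k ∈ Finset.range N, G (seg (k / N) p) + 4 * L * R / N) := by
    filter_upwards [good] with p hp
    set x : ℕ → E d := fun k => seg (k / N) p with hx
    set h : E d := (1 / N : ℝ) • (p.2 - p.1) with hh
    have step : ∀ k : ℕ, x (k + 1) - x k = h := by
      intro k
      simp only [hx, hh, seg]
      push_cast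
      rw [add_div]
      module
    have x0 : x 0 = p.1 := by simp [hx, seg]
    have xN : x N = p.2 := by simp [hx, seg, div_self Np.ne']
    have ind : ∀ k : ℕ, k ≤ N → δ (x 0) - δ (x k)
        ≤ ∑ j ∈ Finset.range k, G (x j) + ⟪T (x k), h⟫ - ⟪T (x 0), h⟫ := by
      intro k
      induction k with
      | zero => simp
      | succ k ih =>
        intro hk
        have a0 := ih (by omega)
        have a1 := (hp k (by omega)).2.2 (x (k + 1)) (hp (k + 1) hk).1.1
        have a2 := (hp (k + 1) hk).2.1.2 (x k)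
        change φ' (x k) + ⟪T (x k), x (k + 1) - x k⟫ - G (x k) ≤ _ at a1
        change φ (x (k + 1)) + ⟪T (x (k + 1)), x k - x (k + 1)⟫ ≤ _ at a2
        rw [← neg_sub (x (k + 1)), step, inner_neg_right] at a2
        rw [step] at a1
        rw [Finset.sum_range_succ]
        simp only [hδ] at a0 ⊢
        linarith
    have fin := ind N le_rfl
    have p1 : p.1 ∈ K := x0 ▸ (hp 0 (Nat.zero_le _)).1.1
    have p2 : p.2 ∈ K := xN ▸ (hp N le_rfl).1.1
    have n0 : ‖T (x 0)‖ ≤ L := (hp 0 (Nat.zero_le _)).2.1.1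
    have nN : ‖T (x N)‖ ≤ L := (hp N le_rfl).2.1.1
    have L0 : 0 ≤ L := le_trans (norm_nonneg _) n0
    have hn : ‖h‖ ≤ 2 * R / N := by
      rw [hh, norm_smul, Real.norm_eq_abs, abs_of_pos (by positivity), one_div, inv_mul_eq_div]
      refine div_le_div_of_nonneg_right ?_ Np.le
      linarith [norm_sub_le p.2 p.1, hR _ p1, hR _ p2]
    have i1 : ⟪T (x N), h⟫ ≤ L * (2 * R / N) :=
      le_trans (real_inner_le_norm _ _) (mul_le_mul nN hn (norm_nonneg _) L0)
    have i2 : -⟪T (x 0), h⟫ ≤ L * (2 * R / N) :=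
      le_trans (neg_le_abs _) (le_trans (abs_real_inner_le_norm _ _)
        (mul_le_mul n0 hn (norm_nonneg _) L0))
    have R0 : 0 ≤ R := le_trans (norm_nonneg _) (hR _ p1)
    have s0 : 0 ≤ ∑ j ∈ Finset.range N, G (x j) :=
      Finset.sum_nonneg fun j hj => (hp j (Finset.mem_range.1 hj).le).1.2
    have e : L * (2 * R / N) + L * (2 * R / N) = 4 * L * R / N := by ring
    have f1 : δ p.1 - δ p.2 ≤ ∑ j ∈ Finset.range N, G (x j) + 4 * L * R / N := by
      rw [← x0, ← xN]; linarith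
    have f0 : 0 ≤ ∑ j ∈ Finset.range N, G (x j) + 4 * L * R / N := by positivity
    have hu1 := abs_le.1 (uM _ p1)
    calc (u p.1 + M) * (δ p.1 - δ p.2)
        ≤ (u p.1 + M) * (∑ j ∈ Finset.range N, G (x j) + 4 * L * R / N) :=
          mul_le_mul_of_nonneg_left f1 (by linarith)
      _ ≤ _ := mul_le_mul_of_nonneg_right (by linarith) f0
  have iG : ∀ k ∈ Finset.range N, Integrable (fun p => G (seg (k / N) p)) P := fun k hk =>
    integrable_seg hK (tk k (Finset.mem_range.1 hk).le).1 (tk k (Finset.mem_range.1 hk).le).2 hG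
  have i1 : Integrable (fun p : E d × E d => (u p.1 + M) * δ p.1 * (fun _ => (1 : ℝ)) p.2) P :=
    Integrable.mul_prod (f := fun x => (u x + M) * δ x) (hK.integrable (by fun_prop))
      (integrable_const 1)
  have i2 : Integrable (fun p : E d × E d => (u p.1 + M) * δ p.2) P :=
    Integrable.mul_prod (f := fun x => u x + M) (hK.integrable (by fun_prop)) (hK.integrable δc)
  have e0 : (fun p : E d × E d => (u p.1 + M) * (δ p.1 - δ p.2))
      = fun p => (u p.1 + M) * δ p.1 * (fun _ => (1 : ℝ)) p.2 - (u p.1 + M) * δ p.2 := by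
    funext p; ring
  have key := integral_mono_ae (e0 ▸ i1.sub i2)
    (((integrable_finsetSum _ iG).add (integrable_const _)).const_mul (2 * M)) pw
  rw [e0, integral_sub i1 i2, integral_prod_mul (f := fun x => (u x + M) * δ x)
    (g := fun _ => (1 : ℝ)), integral_prod_mul (f := fun x => u x + M) (g := δ),
    integral_const_mul, integral_add' (integrable_finsetSum _ iG) (integrable_const _),
    integral_finsetSum _ iG] at key
  simp only [add_mul] at key
  rw [hK.integral_add (by fun_prop) (by fun_prop), hK.integral_add (by fun_prop) (by fun_prop),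
    integral_const_mul, u0, hK.integral_const, hK.integral_const] at key
  have s1 : ∑ k ∈ Finset.range N, ∫ p, G (seg (k / N) p) ∂P ≤ N * 2 ^ d * ∫ x, G x ∂(unif K) := by
    refine le_trans (Finset.sum_le_sum fun k hk => integral_seg_le hK
      (tk k (Finset.mem_range.1 hk).le).1 (tk k (Finset.mem_range.1 hk).le).2 hG G0) ?_
    simp [mul_assoc]
  obtain ⟨x1, hx1⟩ := hK.ae_mem.exists
  have M0 : 0 ≤ M := le_trans (abs_nonneg _) (uM x1 hx1)
  simp only [integral_const, probReal_univ, smul_eq_mul, one_mul, mul_one] at key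
  have s2 := mul_le_mul_of_nonneg_left s1 (by positivity : 0 ≤ 2 * M)
  change ∫ x, u x * δ x ∂(unif K) ≤ _
  linarith

end Vale.Agent.P074
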