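import Vale.Agent.P074.Defs
import Vale.Agent.Common.PrekopaLeindler

namespace Vale.Agent.P074

open MeasureTheory Set
open scoped ENNReal NNReal

abbrev E (d : ℕ) := EuclideanSpace ℝ (Fin d)

variable {d : ℕ}

/-- standing hypotheses on the source set -/
structure Good (K : Set (E d)) : Prop where
  compact : IsCompact K
  convex : Convex ℝ K
  pos : volume K ≠ 0

variable {K : Set (E d)}

lemma Good.meas (hK : Good K) : MeasurableSet K := hK.compact.measurableSet

lemma Good.ne_top (hK : Good K) : volume K ≠ ⊤ := hK.compact.measure_lt_top.ne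

lemma Good.prob (hK : Good K) : IsProbabilityMeasure (unif K) := by
  constructor
  simp [unif, ENNReal.inv_mul_cancel hK.pos hK.ne_top]

lemma Good.ae_mem (hK : Good K) : ∀ᵐ x ∂(unif K), x ∈ K := by
  unfold unif
  exact Measure.ae_smul_measure (ae_restrict_mem hK.meas) _

lemma Good.integrable (hK : Good K) {f : E d → ℝ} (hf : Continuous f) : Integrable f (unif K) := by
  unfold unif
  exact Integrable.smul_measure (hf.continuousOn.integrableOn_compact hK.compact)
    (ENNReal.inv_ne_top.2 hK.pos)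

lemma Good.integral_mono (hK : Good K) {f g : E d → ℝ} (hf : Continuous f) (hg : Continuous g)
    (h : ∀ x ∈ K, f x ≤ g x) : ∫ x, f x ∂(unif K) ≤ ∫ x, g x ∂(unif K) :=
  integral_mono_ae (hK.integrable hf) (hK.integrable hg) (hK.ae_mem.mono h)

lemma Good.integral_nonneg (hK : Good K) {f : E d → ℝ}
    (h : ∀ x ∈ K, 0 ≤ f x) : 0 ≤ ∫ x, f x ∂(unif K) :=
  integral_nonneg_of_ae (hK.ae_mem.mono h)

lemma Good.integral_const (hK : Good K) (c : ℝ) : ∫ _x, c ∂(unif K) = c := by
  have := hK.prob
  simp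

lemma Good.integral_add (hK : Good K) {f g : E d → ℝ} (hf : Continuous f) (hg : Continuous g) :
    ∫ x, f x + g x ∂(unif K) = ∫ x, f x ∂(unif K) + ∫ x, g x ∂(unif K) :=
  MeasureTheory.integral_add (hK.integrable hf) (hK.integrable hg)

lemma Good.integral_sub (hK : Good K) {f g : E d → ℝ} (hf : Continuous f) (hg : Continuous g) :
    ∫ x, f x - g x ∂(unif K) = ∫ x, f x ∂(unif K) - ∫ x, g x ∂(unif K) :=
  MeasureTheory.integral_sub (hK.integrable hf) (hK.integrable hg)

lemma Good.integral_sum (hK : Good K) {ι : Type*} [Fintype ι] {f : ι → E d → ℝ}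
    (hf : ∀ i, Continuous (f i)) :
    ∫ x, ∑ i, f i x ∂(unif K) = ∑ i, ∫ x, f i x ∂(unif K) :=
  integral_finsetSum _ fun i _ => hK.integrable (hf i)

lemma Good.pl (hK : Good K) {f g h : E d → ℝ} (hf : Continuous f) (hg : Continuous g)
    (hh : Continuous h) (f0 : ∀ x, 0 ≤ f x) (g0 : ∀ x, 0 ≤ g x) (h0 : ∀ x, 0 ≤ h x)
    (H : ∀ x ∈ K, ∀ y ∈ K, f x * g y ≤ h ((1 / 2 : ℝ) • (x + y)) ^ 2) :
    (∫ x, f x ∂(unif K)) * ∫ x, g x ∂(unif K) ≤ (∫ x, h x ∂(unif K)) ^ 2 := by
  have key := Vale.Agent.Common.pl_euclidean d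
    (K.indicator fun x => ENNReal.ofReal (f x)) (K.indicator fun x => ENNReal.ofReal (g x))
    (K.indicator fun x => ENNReal.ofReal (h x))
    (hf.measurable.ennreal_ofReal.indicator hK.meas)
    (hg.measurable.ennreal_ofReal.indicator hK.meas)
    (hh.measurable.ennreal_ofReal.indicator hK.meas)
    (fun x y => by
      by_cases hx : x ∈ K
      · by_cases hy : y ∈ K
        · have hm : (1 / 2 : ℝ) • (x + y) ∈ K := by
            have := hK.convex hx hy (a := 1 / 2) (b := 1 / 2) (by norm_num) (by norm_num)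
              (by norm_num)
            rwa [← smul_add] at this
          rw [indicator_of_mem hx, indicator_of_mem hy, indicator_of_mem hm,
            ← ENNReal.ofReal_mul (f0 x), ← ENNReal.ofReal_pow (h0 _)]
          exact ENNReal.ofReal_le_ofReal (H x hx y hy)
        · simp [indicator_of_notMem hy]
      · simp [indicator_of_notMem hx])
  rw [lintegral_indicator hK.meas, lintegral_indicator hK.meas, lintegral_indicator hK.meas] at key
  have e : ∀ k : E d → ℝ, Continuous k → (∀ x, 0 ≤ k x) →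
      ∫⁻ x in K, ENNReal.ofReal (k x) = ENNReal.ofReal (∫ x in K, k x) := by
    intro k hk k0
    rw [ofReal_integral_eq_lintegral_ofReal (hk.continuousOn.integrableOn_compact hK.compact)
      (Filter.Eventually.of_forall k0)]
  have n0 : ∀ k : E d → ℝ, (∀ x, 0 ≤ k x) → 0 ≤ ∫ x in K, k x := fun k k0 =>
    MeasureTheory.integral_nonneg k0
  rw [e f hf f0, e g hg g0, e h hh h0, ← ENNReal.ofReal_mul (n0 f f0),
    ← ENNReal.ofReal_pow (n0 h h0), ENNReal.ofReal_le_ofReal_iff (sq_nonneg _)] at key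
  unfold unif
  simp only [integral_smul_measure, smul_eq_mul]
  have c0 : 0 ≤ ((volume K)⁻¹).toReal := ENNReal.toReal_nonneg
  rw [mul_mul_mul_comm, mul_pow, sq]
  exact mul_le_mul_of_nonneg_left key (mul_nonneg c0 c0)

end Vale.Agent.P074
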