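import Vale.Agent.P074.Stab

namespace Vale.Agent.P074

open MeasureTheory Set
open scoped RealInnerProductSpace

variable {d : ℕ} {K : Set (E d)} {ι : Type*} [Fintype ι] [Nonempty ι]

lemma telescope {G G' B B' : ℝ → ℝ} {S : ℝ} (hG : ∀ s t, G t + (s - t) * B t ≤ G s)
    (hG' : ∀ s t, G' t + (s - t) * B' t ≤ G' s) (hS : ∀ t, B t - B' t ≤ S) :
    (G' 0 - G 0) - (G' 1 - G 1) ≤ S := by
  have key : ∀ h : ℝ, 0 < h → ∀ k : ℕ,
      (G' 0 - G 0) - (G' (k * h) - G (k * h)) ≤ k * h * S + h * (B (k * h) - B 0) := by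
    intro h h0 k
    induction k with
    | zero => simp
    | succ k ih =>
      have a1 := hG' (((k + 1 : ℕ) : ℝ) * h) (k * h)
      have a2 := hG (k * h) (((k + 1 : ℕ) : ℝ) * h)
      have a3 := mul_le_mul_of_nonneg_left (hS (k * h)) h0.le
      have e1 : ((k + 1 : ℕ) : ℝ) * h - k * h = h := by push_cast; ring
      have e2 : (k : ℝ) * h - ((k + 1 : ℕ) : ℝ) * h = -h := by push_cast; ring
      have e3 : ((k + 1 : ℕ) : ℝ) * h * S = k * h * S + h * S := by push_cast; ring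
      rw [e1] at a1
      rw [e2] at a2
      rw [e3]
      linarith
  refine le_of_forall_pos_le_add fun η η0 => ?_
  obtain ⟨N, hN⟩ := exists_nat_gt (|B 1 - B 0| / η)
  have N0 : (0 : ℝ) < N := lt_of_le_of_lt (by positivity) hN
  have := key (1 / N) (by positivity) N
  rw [mul_one_div_cancel N0.ne'] at this
  have h2 : 1 / (N : ℝ) * (B 1 - B 0) ≤ η := by
    rw [div_lt_iff₀ η0] at hN
    rw [one_div, inv_mul_le_iff₀ N0]
    linarith [le_abs_self (B 1 - B 0)]
  linarith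

theorem core (hK : Good K) {R : ℝ} (R0 : 0 < R) (hR : ∀ x ∈ K, ‖x‖ ≤ R) {m : ι → ℝ}
    (m0 : ∀ i, 0 < m i) (m1 : ∑ i, m i = 1) {u : E d → ℝ} (hu : Continuous u)
    (u0 : ∫ x, u x ∂(unif K) = 0) {ε : ℝ} (ε0 : 0 < ε)
    (hε : ∀ x ∈ K, |ε * u x| ≤ 1 / 2) (y z : ι → E d) :
    ∃ ψ ψ' : ι → ℝ, Opt K m (fun x => 1 + ε * u x) y ψ ∧ Opt K m (fun _ => 1) z ψ' ∧
      ∫ x, u x * (pot y ψ x - pot z ψ' x) ∂(unif K)
        ≤ (∫ x, u x ^ 2 ∂(unif K)) / 2 + 5000 * R ^ 2 * ∑ i, m i * ‖z i - y i‖ ^ 2 := by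
  set θ : E d → ℝ := fun x => 1 + ε * u x with hθ
  have θc : Continuous θ := by rw [hθ]; fun_prop
  have θ0 : ∀ x ∈ K, 0 ≤ θ x := fun x hx => by
    have := neg_abs_le (ε * u x)
    have := hε x hx
    simp only [hθ]; linarith
  have θ1 : ∫ x, θ x ∂(unif K) = 1 := by
    simp only [hθ]
    rw [hK.integral_add (by fun_prop) (by fun_prop), integral_const_mul, u0, hK.integral_const]
    ring
  choose o1 ho1 using fun w : ι → E d => exists_opt hK m0 m1 (θ := fun _ => 1) continuous_const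
    (fun _ _ => zero_le_one) (hK.integral_const 1) w
  choose o2 ho2 using fun w : ι → E d => exists_opt hK m0 m1 θc θ0 θ1 w
  set Y : ℝ → ι → E d := fun t i => y i + t • (z i - y i) with hY
  have Y0 : Y 0 = y := by funext i; simp [hY]
  have Y1 : Y 1 = z := by funext i; simp [hY]
  have var : ∀ (η : E d → ℝ), Continuous η → (∀ x ∈ K, 0 ≤ η x) → ∀ o : (ι → E d) → ι → ℝ,
      (∀ w, Opt K m η w (o w)) → ∀ s t : ℝ,
      Val K m η (Y t) (o (Y t)) + (s - t) *
        ∑ i, ∫ x, η x * wt (Y t) (o (Y t)) i x * ⟪x, z i - y i⟫ ∂(unif K)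
        ≤ Val K m η (Y s) (o (Y s)) := by
    intro η hη η0 o ho s t
    refine le_trans (le_of_eq ?_) (variational hK hη η0 (ho (Y t)) (Y s) (o (Y s)))
    congr 1
    rw [Finset.mul_sum]
    refine Finset.sum_congr rfl fun i _ => ?_
    rw [← integral_const_mul]
    refine integral_congr_ae (Filter.Eventually.of_forall fun x => ?_)
    have : Y s i - Y t i = (s - t) • (z i - y i) := by
      simp only [hY]; rw [sub_smul]; abel
    simp only [this, inner_smul_right]
    ring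
  have key := telescope (var (fun _ => 1) continuous_const (fun _ _ => zero_le_one) o1 ho1)
    (var θ θc θ0 o2 ho2)
    (fun t => stab hK R0 hR m0 hu ε0 hε (ho1 (Y t)) (ho2 (Y t)) (fun i => z i - y i))
  rw [Y0, Y1] at key
  refine ⟨o2 y, o1 z, ho2 y, ho1 z, ?_⟩
  have a1 := (ho1 y).le hK continuous_const (fun _ _ => zero_le_one) (o2 y)
  have a2 := (ho2 z).le hK θc θ0 (o1 z)
  have e : ∀ (w : ι → E d) (χ : ι → ℝ), Val K m θ w χ - Val K m (fun _ => 1) w χ
      = ε * ∫ x, u x * pot w χ x ∂(unif K) := by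
    intro w χ
    unfold Val
    rw [add_sub_add_right_eq_sub, ← hK.integral_sub (by fun_prop) (by fun_prop),
      ← integral_const_mul]
    refine integral_congr_ae (Filter.Eventually.of_forall fun x => ?_)
    simp only [hθ]; ring
  have e1 := e y (o2 y)
  have e2 := e z (o1 z)
  simp only [mul_sub]
  rw [hK.integral_sub (by fun_prop) (by fun_prop)]
  refine le_of_mul_le_mul_left ?_ ε0
  rw [mul_sub]
  linarith

end Vale.Agent.P074
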