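import Vale.Agent.P074.GN

namespace Vale.Agent.P074

open MeasureTheory Set Metric Filter Topology
open scoped RealInnerProductSpace ENNReal

variable {d : ℕ} {K : Set (E d)}

section Swap

variable {ι : Type} [Fintype ι]

noncomputable def swap (c : ι → E d) (r : ℝ) (τ : Equiv.Perm ι) (x : E d) : E d :=
  x + ∑ i, (closedBall (c i) r).indicator (fun _ => c (τ i) - c i) x

lemma swap_meas (c : ι → E d) (r : ℝ) (τ : Equiv.Perm ι) : Measurable (swap c r τ) :=
  measurable_id.add (Finset.measurable_sum _ fun _ _ =>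
    measurable_const.indicator measurableSet_closedBall)

lemma swap_out {c : ι → E d} {r : ℝ} (τ : Equiv.Perm ι) {x : E d}
    (hx : ∀ i, x ∉ closedBall (c i) r) : swap c r τ x = x := by
  unfold swap
  rw [Finset.sum_eq_zero fun i _ => indicator_of_notMem (hx i) _, add_zero]

lemma swap_in {c : ι → E d} {r : ℝ} (τ : Equiv.Perm ι)
    (hd : Pairwise (Function.onFun Disjoint fun i => closedBall (c i) r)) {x : E d} {i : ι}
    (hx : x ∈ closedBall (c i) r) : swap c r τ x = x + (c (τ i) - c i) := by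
  unfold swap
  rw [Finset.sum_eq_single i, indicator_of_mem hx]
  · intro j _ hj
    exact indicator_of_notMem (fun h => disjoint_left.1 (hd hj) h hx) _
  · simp

lemma shift_pres (a b : E d) (r : ℝ) : MeasurePreserving (fun x => x + (b - a))
    (volume.restrict (closedBall a r)) (volume.restrict (closedBall b r)) := by
  have := (measurePreserving_add_right (volume : Measure (E d)) (b - a)).restrict_preimage
    (s := closedBall b r) measurableSet_closedBall
  rwa [preimage_add_right_closedBall, sub_sub_cancel] at this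

lemma swap_pres {c : ι → E d} {r : ℝ} (τ : Equiv.Perm ι)
    (hd : Pairwise (Function.onFun Disjoint fun i => closedBall (c i) r))
    (hs : ∀ i, closedBall (c i) r ⊆ K) (hK : Good K) :
    (unif K).map (swap c r τ) = unif K := by
  have mU : MeasurableSet (⋃ i, closedBall (c i) r) :=
    MeasurableSet.iUnion fun _ => measurableSet_closedBall
  have e : volume.restrict K = volume.restrict (K \ ⋃ i, closedBall (c i) r)
      + ∑ i, volume.restrict (closedBall (c i) r) := by
    rw [← Measure.sum_fintype, ← Measure.restrict_iUnion hd fun _ => measurableSet_closedBall,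
      ← Measure.restrict_union disjoint_sdiff_left mU, sdiff_union_of_subset (iUnion_subset hs)]
  unfold unif
  rw [Measure.map_smul]
  congr 1
  rw [e, Measure.map_add _ _ (swap_meas c r τ), Measure.map_finset_sum (swap_meas c r τ).aemeasurable]
  congr 1
  · rw [Measure.map_congr (g := id), Measure.map_id]
    filter_upwards [ae_restrict_mem (hK.meas.diff mU)] with x hx
    exact swap_out τ fun i hi => hx.2 (mem_iUnion.2 ⟨i, hi⟩)
  · rw [← Equiv.sum_comp τ (fun i => volume.restrict (closedBall (c i) r))]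
    refine Finset.sum_congr rfl fun i _ => ?_
    rw [Measure.map_congr (g := fun x => x + (c (τ i) - c i)), (shift_pres _ _ r).map_eq]
    filter_upwards [ae_restrict_mem measurableSet_closedBall] with x hx
    exact swap_in τ hd hx

lemma lintegral_sq_eq {α : Type*} [MeasurableSpace α] {μ : Measure α} {f : α → E d}
    (hi : Integrable (fun x => ‖f x‖ ^ 2) μ) :
    ∫⁻ x, ‖f x‖ₑ ^ 2 ∂μ = ENNReal.ofReal (∫ x, ‖f x‖ ^ 2 ∂μ) := by
  rw [ofReal_integral_eq_lintegral_ofReal hi (Eventually.of_forall fun x => sq_nonneg _)]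
  congr 1
  ext x
  rw [ENNReal.ofReal_pow (norm_nonneg _), ofReal_norm]

lemma cyc_balls (hK : Good K) {μ : Measure (E d)} {T : E d → E d} (hT : IsOptimalMap (unif K) μ T)
    {L : ℝ} (hL : ∀ᵐ x ∂(unif K), ‖T x‖ ≤ L) {c : ι → E d} {r : ℝ} (τ : Equiv.Perm ι)
    (hd : Pairwise (Function.onFun Disjoint fun i => closedBall (c i) r))
    (hs : ∀ i, closedBall (c i) r ⊆ K) :
    0 ≤ ∑ i, ⟪c (τ i) - c i, ∫ y in closedBall (c (τ i)) r, T y⟫ := by
  have := hK.prob
  obtain ⟨R, hR⟩ := hK.compact.isBounded.exists_norm_le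
  have mT := hT.1
  have mσ := swap_meas c r τ
  have pσ : MeasurePreserving (swap c r τ) (unif K) (unif K) := ⟨mσ, swap_pres τ hd hs hK⟩
  set σ := swap c r τ with hσ
  have opt := hT.2.2 (T ∘ σ) (mT.comp mσ) (by rw [← Measure.map_map mT mσ, pσ.map_eq, hT.2.1])
  have a1 : ∀ᵐ x ∂(unif K), ‖T (σ x)‖ ≤ L := pσ.quasiMeasurePreserving.ae hL
  have a2 : ∀ᵐ x ∂(unif K), σ x ∈ K := pσ.quasiMeasurePreserving.ae hK.ae_mem
  have i1 : Integrable (fun x => ‖x - T x‖ ^ 2) (unif K) := by
    refine Integrable.of_bound ((measurable_id.sub mT).norm.pow_const 2).aestronglyMeasurable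
      ((R + L) ^ 2) ?_
    filter_upwards [hK.ae_mem, hL] with x h1 h2
    rw [Real.norm_of_nonneg (sq_nonneg _)]
    exact pow_le_pow_left₀ (norm_nonneg _) (by linarith [norm_sub_le x (T x), hR x h1]) 2
  have i2 : Integrable (fun x => ‖σ x - T (σ x)‖ ^ 2) (unif K) :=
    (pσ.integrable_comp i1.aestronglyMeasurable).2 i1
  have i3 : Integrable (fun x : E d => ‖x‖ ^ 2) (unif K) := hK.integrable (by fun_prop)
  have i4 : Integrable (fun x => ‖σ x‖ ^ 2) (unif K) :=
    (pσ.integrable_comp i3.aestronglyMeasurable).2 i3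
  have i5 : Integrable (fun x => ⟪σ x - x, T (σ x)⟫) (unif K) := by
    refine Integrable.of_bound ((mσ.sub measurable_id).inner (mT.comp mσ)).aestronglyMeasurable
      ((R + R) * L) ?_
    filter_upwards [hK.ae_mem, a1, a2] with x h1 h2 h3
    refine le_trans (abs_real_inner_le_norm _ _) (mul_le_mul ?_ h2 (norm_nonneg _) ?_)
    · linarith [norm_sub_le (σ x) x, hR x h1, hR _ h3]
    · linarith [norm_nonneg x, hR x h1]
  have e1 : ∀ x, ‖x - T (σ x)‖ ^ 2
      = ‖σ x - T (σ x)‖ ^ 2 + (‖x‖ ^ 2 - ‖σ x‖ ^ 2) + 2 * ⟪σ x - x, T (σ x)⟫ := by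
    intro x
    rw [norm_sub_sq_real, norm_sub_sq_real, inner_sub_left]
    ring
  have j1 : Integrable (fun x => ‖x‖ ^ 2 - ‖σ x‖ ^ 2) (unif K) := i3.sub i4
  have j2 : Integrable (fun x => ‖σ x - T (σ x)‖ ^ 2 + (‖x‖ ^ 2 - ‖σ x‖ ^ 2)) (unif K) :=
    i2.add j1
  have j3 : Integrable (fun x => 2 * ⟪σ x - x, T (σ x)⟫) (unif K) := i5.const_mul _
  have i6 : Integrable (fun x => ‖x - T (σ x)‖ ^ 2) (unif K) := by
    simp only [e1]
    exact j2.add j3
  have c1 : ∀ f : E d → ℝ, Measurable f → ∫ x, f (σ x) ∂(unif K) = ∫ x, f x ∂(unif K) := by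
    intro f hf
    rw [← integral_map mσ.aemeasurable hf.aestronglyMeasurable, pσ.map_eq]
  simp only [Function.comp] at opt
  rw [lintegral_sq_eq i1, lintegral_sq_eq i6, ENNReal.ofReal_le_ofReal_iff
    (integral_nonneg fun x => sq_nonneg _)] at opt
  simp only [e1] at opt
  rw [integral_add j2 j3, integral_add i2 j1, integral_sub i3 i4, integral_const_mul,
    c1 (fun x => ‖x - T x‖ ^ 2) ((measurable_id.sub mT).norm.pow_const 2),
    c1 (fun x => ‖x‖ ^ 2) (measurable_norm.pow_const 2)] at opt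
  have k1 : 0 ≤ ∫ x, ⟪σ x - x, T (σ x)⟫ ∂(unif K) := by linarith
  have hL' : ∀ᵐ x ∂(volume.restrict K), ‖T x‖ ≤ L := by
    unfold unif at hL
    rwa [Measure.ae_ennreal_smul_measure_iff (ENNReal.inv_ne_zero.2 hK.ne_top)] at hL
  have iT : ∀ i, IntegrableOn T (closedBall (c i) r) volume := by
    intro i
    have : IsFiniteMeasure (volume.restrict (closedBall (c i) r)) :=
      isFiniteMeasure_restrict.2 measure_closedBall_lt_top.ne
    exact Integrable.of_bound mT.aestronglyMeasurable L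
      (ae_restrict_of_ae_restrict_of_subset (hs i) hL')
  have iT' : ∀ i, IntegrableOn (fun x => ⟪c (τ i) - c i, T (x + (c (τ i) - c i))⟫)
      (closedBall (c i) r) volume := by
    intro i
    refine Integrable.const_inner _ ?_
    exact ((shift_pres (c i) (c (τ i)) r).integrable_comp mT.aestronglyMeasurable).2 (iT _)
  have e2 : ∀ x, ⟪σ x - x, T (σ x)⟫ = ∑ i, (closedBall (c i) r).indicator
      (fun x => ⟪c (τ i) - c i, T (x + (c (τ i) - c i))⟫) x := by
    intro x
    by_cases hx : ∃ i, x ∈ closedBall (c i) r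
    · obtain ⟨i, hi⟩ := hx
      rw [Finset.sum_eq_single i, indicator_of_mem hi, hσ, swap_in τ hd hi, add_sub_cancel_left]
      · intro j _ hj
        exact indicator_of_notMem (fun h => disjoint_left.1 (hd hj) h hi) _
      · simp
    · push Not at hx
      rw [Finset.sum_eq_zero fun i _ => indicator_of_notMem (hx i) _, hσ, swap_out τ hx, sub_self,
        inner_zero_left]
  unfold unif at k1
  rw [integral_smul_measure, smul_eq_mul, mul_nonneg_iff_of_pos_left
    (ENNReal.toReal_pos (ENNReal.inv_ne_zero.2 hK.ne_top) (ENNReal.inv_ne_top.2 hK.pos))] at k1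
  simp only [e2] at k1
  rw [integral_finsetSum _ fun i _ =>
    ((iT' i).integrable_indicator measurableSet_closedBall).restrict] at k1
  refine le_trans k1 (le_of_eq (Finset.sum_congr rfl fun i _ => ?_))
  rw [integral_indicator measurableSet_closedBall,
    Measure.restrict_restrict measurableSet_closedBall, inter_eq_left.2 (hs i),
    ← integral_inner (iT _), ← (shift_pres (c i) (c (τ i)) r).map_eq, integral_map (by fun_prop)
      (measurable_const.inner mT).aestronglyMeasurable]

end Swap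

/-- good points -/
def Leb (K : Set (E d)) (T : E d → E d) (L : ℝ) (e x : E d) : Prop :=
  x ∈ interior K ∧ ‖T x‖ ≤ L ∧ ∀ k : ℕ, Tendsto
    (fun r : ℝ => ⨍ y in closedBall (x + (3 * k * r) • e) r, K.indicator T y) (𝓝[>] 0) (𝓝 (T x))

lemma ae_leb (hK : Good K) {T : E d → E d} (mT : Measurable T) {L : ℝ}
    (hL : ∀ᵐ x ∂(unif K), ‖T x‖ ≤ L) {e : E d} (he : ‖e‖ = 1) :
    ∀ᵐ x ∂(unif K), Leb K T L e x := by
  have hL' : ∀ᵐ x ∂(volume.restrict K), ‖T x‖ ≤ L := by
    unfold unif at hL
    rwa [Measure.ae_ennreal_smul_measure_iff (ENNReal.inv_ne_zero.2 hK.ne_top)] at hL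
  have iT : Integrable (K.indicator T) volume := by
    have : IsFiniteMeasure (volume.restrict K) := isFiniteMeasure_restrict.2 hK.ne_top
    exact IntegrableOn.integrable_indicator (Integrable.of_bound mT.aestronglyMeasurable L hL')
      hK.meas
  have h1 : ∀ᵐ x ∂(volume : Measure (E d)), ∀ k : ℕ, Tendsto
      (fun r : ℝ => ⨍ y in closedBall (x + (3 * k * r) • e) r, K.indicator T y) (𝓝[>] 0)
      (𝓝 (K.indicator T x)) := by
    rw [ae_all_iff]
    intro k
    filter_upwards [IsUnifLocDoublingMeasure.ae_tendsto_average volume iT.locallyIntegrable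
      (3 * k)] with x hx
    refine hx (fun r : ℝ => x + (3 * k * r) • e) (fun r => r) tendsto_id ?_
    filter_upwards [self_mem_nhdsWithin] with r hr
    have r0 : 0 < r := hr
    rw [mem_closedBall, dist_comm, dist_eq_norm, add_sub_cancel_left, norm_smul, he, mul_one,
      Real.norm_of_nonneg (by positivity)]
  have h2 : ∀ᵐ x ∂(volume : Measure (E d)), x ∉ frontier K :=
    measure_eq_zero_iff_ae_notMem.1 (hK.convex.addHaar_frontier volume)
  have ac : unif K ≪ volume := by
    unfold unif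
    exact Measure.smul_absolutelyContinuous.trans Measure.absolutelyContinuous_restrict
  filter_upwards [hL, hK.ae_mem, ac.ae_le h1, ac.ae_le h2] with x a1 a2 a3 a4
  refine ⟨?_, a1, ?_⟩
  · by_contra h
    exact a4 ⟨subset_closure a2, h⟩
  · rwa [indicator_of_mem a2] at a3

lemma cyc_pts (hK : Good K) {μ : Measure (E d)} {T : E d → E d} (hT : IsOptimalMap (unif K) μ T)
    {L : ℝ} (hL : ∀ᵐ x ∂(unif K), ‖T x‖ ≤ L) {e : E d} (he : ‖e‖ = 1) {n : ℕ}
    (x : Fin n → E d) (hx : ∀ i, Leb K T L e (x i)) (τ : Equiv.Perm (Fin n)) :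
    ∑ i, ⟪T (x i), x (τ i) - x i⟫ ≤ 0 := by
  set c : ℝ → Fin n → E d := fun r i => x i + (3 * (i : ℕ) * r) • e with hc
  have tc : ∀ i, Tendsto (fun r => c r i) (𝓝[>] 0) (𝓝 (x i)) := by
    intro i
    have : Continuous fun r => c r i := by rw [hc]; fun_prop
    have h := (this.tendsto 0).mono_left (nhdsWithin_le_nhds (s := Ioi 0))
    simpa [hc] using h
  have lim : Tendsto (fun r => ∑ i, ⟪c r (τ.symm i) - c r i,
      ⨍ y in closedBall (c r (τ.symm i)) r, K.indicator T y⟫) (𝓝[>] 0)
      (𝓝 (∑ i, ⟪x (τ.symm i) - x i, T (x (τ.symm i))⟫)) :=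
    tendsto_finsetSum _ fun i _ => ((tc _).sub (tc i)).inner ((hx _).2.2 _)
  have t0 : Tendsto (fun r : ℝ => r) (𝓝[>] 0) (𝓝 0) := tendsto_id.mono_left nhdsWithin_le_nhds
  have ev1 : ∀ᶠ r in 𝓝[>] (0 : ℝ), ∀ i, closedBall (c r i) r ⊆ K := by
    rw [eventually_all]
    intro i
    obtain ⟨s, s0, hs⟩ := Metric.isOpen_iff.1 isOpen_interior _ (hx i).1
    have h1 : Tendsto (fun r => r + dist (c r i) (x i)) (𝓝[>] 0) (𝓝 (0 + dist (x i) (x i))) :=
      t0.add ((tc i).dist tendsto_const_nhds)
    rw [dist_self, add_zero] at h1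
    filter_upwards [h1.eventually (gt_mem_nhds s0)] with r hr
    exact (closedBall_subset_ball' hr).trans (hs.trans interior_subset)
  have ev2 : ∀ᶠ r in 𝓝[>] (0 : ℝ), ∀ i j, i ≠ j → r + r < dist (c r i) (c r j) := by
    rw [eventually_all]
    intro i
    rw [eventually_all]
    intro j
    by_cases h : x i = x j
    · filter_upwards [self_mem_nhdsWithin] with r hr hij
      have r0 : 0 < r := hr
      have e1 : c r i - c r j = (3 * r * (((i : ℕ) : ℝ) - (j : ℕ))) • e := by
        simp only [hc, h]; module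
      have e2 : (1 : ℝ) ≤ |((i : ℕ) : ℝ) - (j : ℕ)| := by
        have : (1 : ℤ) ≤ |((i : ℕ) : ℤ) - (j : ℕ)| :=
          Int.one_le_abs (sub_ne_zero.2 fun h => hij (Fin.ext (by exact_mod_cast h)))
        exact_mod_cast this
      rw [dist_eq_norm, e1, norm_smul, he, mul_one, Real.norm_eq_abs, abs_mul,
        abs_of_pos (by positivity : 0 < 3 * r)]
      nlinarith
    · have h1 : Tendsto (fun r => dist (c r i) (c r j) - (r + r)) (𝓝[>] 0)
          (𝓝 (dist (x i) (x j) - (0 + 0))) := ((tc i).dist (tc j)).sub (t0.add t0)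
      rw [add_zero, sub_zero] at h1
      filter_upwards [h1.eventually (lt_mem_nhds (dist_pos.2 h))] with r hr _
      linarith
  have key : 0 ≤ ∑ i, ⟪x (τ.symm i) - x i, T (x (τ.symm i))⟫ := by
    refine ge_of_tendsto lim ?_
    filter_upwards [ev1, ev2] with r h1 h2
    have := cyc_balls hK hT hL (c := c r) (r := r) τ.symm
      (fun i j hij => closedBall_disjoint_closedBall (h2 i j hij)) h1
    have e1 : ∀ i, ⨍ y in closedBall (c r i) r, K.indicator T y
        = ((volume : Measure (E d)).real (closedBall 0 r))⁻¹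
          • ∫ y in closedBall (c r i) r, T y := by
      intro i
      rw [setAverage_eq, Measure.addHaar_real_closedBall_center,
        setIntegral_congr_fun measurableSet_closedBall fun y hy => indicator_of_mem (h1 i hy) T]
    simp only [e1, inner_smul_right, ← Finset.mul_sum]
    exact mul_nonneg (inv_nonneg.2 measureReal_nonneg) this
  rw [← Equiv.sum_comp τ] at key
  simp only [Equiv.symm_apply_apply] at key
  have e3 : ∑ i, ⟪T (x i), x (τ i) - x i⟫ = -∑ i, ⟪x i - x (τ i), T (x i)⟫ := by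
    rw [← Finset.sum_neg_distrib]
    refine Finset.sum_congr rfl fun i _ => ?_
    rw [← inner_neg_left, neg_sub, real_inner_comm]
  linarith

theorem exists_pot (hK : Good K) {μ : Measure (E d)} {T : E d → E d}
    (hT : IsOptimalMap (unif K) μ T) {L : ℝ} (hL : ∀ᵐ x ∂(unif K), ‖T x‖ ≤ L) {e : E d}
    (he : ‖e‖ = 1) : ∃ φ, IsPot K L φ T := by
  have := hK.prob
  have hG := ae_leb hK hT.1 hL he
  obtain ⟨x0, hx0⟩ := hG.exists
  set Reach : E d → ℝ → Prop := fun z a => ∃ (n : ℕ) (x : ℕ → E d), x 0 = x0 ∧ x n = z ∧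
    (∀ i ≤ n, Leb K T L e (x i)) ∧ a = ∑ i ∈ Finset.range n, ⟪T (x i), x (i + 1) - x i⟫ with hRe
  have r0 : Reach x0 0 := ⟨0, fun _ => x0, rfl, rfl, fun _ _ => hx0, by simp⟩
  have r1 : ∀ z a, Reach z a → ‖T z‖ ≤ L := by
    rintro z a ⟨n, x, -, rfl, h, -⟩
    exact (h n le_rfl).2.1
  have r2 : ∀ z a z', Reach z a → Leb K T L e z' → Reach z' (a + ⟪T z, z' - z⟫) := by
    rintro z a z' ⟨n, x, h1, rfl, h3, rfl⟩ hz
    refine ⟨n + 1, Function.update x (n + 1) z', by simpa using h1, by simp, ?_, ?_⟩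
    · intro i hi
      rcases eq_or_ne i (n + 1) with rfl | h
      · simpa using hz
      · rw [Function.update_of_ne h]
        exact h3 i (by omega)
    · rw [Finset.sum_range_succ]
      congr 1
      · refine Finset.sum_congr rfl fun i hi => ?_
        have := Finset.mem_range.1 hi
        rw [Function.update_of_ne (by omega), Function.update_of_ne (by omega)]
      · simp
  have r3 : ∀ z a, Reach z a → a + ⟪T z, x0 - z⟫ ≤ 0 := by
    rintro z a ⟨n, x, rfl, rfl, h3, rfl⟩
    have := cyc_pts hK hT hL he (fun i : Fin (n + 1) => x i) (fun i => h3 i (by omega))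
      (finRotate (n + 1))
    rw [Fin.sum_univ_castSucc, finRotate_last] at this
    rw [Finset.sum_range]
    refine le_trans (le_of_eq ?_) this
    congr 1
    refine Finset.sum_congr rfl fun i _ => ?_
    rw [coe_finRotate_of_ne_last (Fin.castSucc_ne_last i)]
    simp
  set S : E d → Set ℝ := fun x => {t | ∃ z a, Reach z a ∧ t = a + ⟪T z, x - z⟫} with hS
  have s0 : ∀ x, (S x).Nonempty := fun x => ⟨_, x0, 0, r0, rfl⟩
  have lip : ∀ z a x x', Reach z a → a + ⟪T z, x - z⟫ ≤ a + ⟪T z, x' - z⟫ + L * ‖x - x'‖ := by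
    intro z a x x' h
    have h1 : ⟪T z, x - x'⟫ ≤ L * ‖x - x'‖ :=
      le_trans (real_inner_le_norm _ _) (mul_le_mul_of_nonneg_right (r1 z a h) (norm_nonneg _))
    simp only [inner_sub_right] at h1 ⊢
    linarith
  have s1 : ∀ x, BddAbove (S x) := by
    intro x
    refine ⟨L * ‖x - x0‖, ?_⟩
    rintro _ ⟨z, a, h, rfl⟩
    linarith [lip z a x x0 h, r3 z a h]
  refine ⟨fun x => sSup (S x), fun x x' => ?_, hT.1, ?_⟩
  · rw [sub_le_iff_le_add']
    refine csSup_le (s0 x) ?_
    rintro _ ⟨z, a, h, rfl⟩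
    linarith [lip z a x x' h, le_csSup (s1 x') ⟨z, a, h, rfl⟩]
  · filter_upwards [hG] with z' hz
    refine ⟨hz.2.1, fun x => ?_⟩
    rw [← le_sub_iff_add_le]
    refine csSup_le (s0 z') ?_
    rintro _ ⟨z, a, h, rfl⟩
    linarith [le_csSup (s1 x) ⟨z', _, r2 z a z' h hz, rfl⟩]

end Vale.Agent.P074
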