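import Mathlib

namespace Vale.Agent.P074

open MeasureTheory
open scoped ENNReal NNReal

/-- The uniform probability measure on `K`. -/
noncomputable def unif {d : ℕ} (K : Set (EuclideanSpace ℝ (Fin d))) :
    Measure (EuclideanSpace ℝ (Fin d)) :=
  (volume K)⁻¹ • volume.restrict K

/-- `T` is a quadratic optimal transport map from `ρ` to `μ`: a Borel map pushing `ρ` to `μ`
that minimizes the integral of `|x - T x|^2` among all such maps. -/
def IsOptimalMap {d : ℕ} (ρ μ : Measure (EuclideanSpace ℝ (Fin d)))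
    (T : EuclideanSpace ℝ (Fin d) → EuclideanSpace ℝ (Fin d)) : Prop :=
  Measurable T ∧ ρ.map T = μ ∧
    ∀ S : EuclideanSpace ℝ (Fin d) → EuclideanSpace ℝ (Fin d), Measurable S → ρ.map S = μ →
      ∫⁻ x, ‖x - T x‖ₑ ^ 2 ∂ρ ≤ ∫⁻ x, ‖x - S x‖ₑ ^ 2 ∂ρ

/-- The quadratic Wasserstein distance: the infimum over couplings. -/
noncomputable def W2 {d : ℕ} (μ ν : Measure (EuclideanSpace ℝ (Fin d))) : ℝ≥0∞ :=
  ⨅ (π : Measure (EuclideanSpace ℝ (Fin d) × EuclideanSpace ℝ (Fin d)))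
    (_ : π.map Prod.fst = μ ∧ π.map Prod.snd = ν),
    (∫⁻ p, ‖p.1 - p.2‖ₑ ^ 2 ∂π) ^ (1 / 2 : ℝ)

/-- The exponent `α` is admissible in dimension `d`. -/
def Admissible (d : ℕ) (α : ℝ) : Prop :=
  ∀ K : Set (EuclideanSpace ℝ (Fin d)), IsCompact K → Convex ℝ K → (interior K).Nonempty →
    ∀ Y : Set (EuclideanSpace ℝ (Fin d)), IsCompact Y → Y.Nonempty →
      ∃ C : ℝ≥0, ∀ μ ν : Measure (EuclideanSpace ℝ (Fin d)),
        IsProbabilityMeasure μ → IsProbabilityMeasure ν → μ Yᶜ = 0 → ν Yᶜ = 0 →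
        ∀ T S : EuclideanSpace ℝ (Fin d) → EuclideanSpace ℝ (Fin d),
          IsOptimalMap (unif K) μ T → IsOptimalMap (unif K) ν S →
          (∫⁻ x, ‖T x - S x‖ₑ ^ 2 ∂(unif K)) ^ (1 / 2 : ℝ) ≤ (C : ℝ≥0∞) * W2 μ ν ^ α

end Vale.Agent.P074
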