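import Vale.Agent.P074.Pot

namespace Vale.Agent.P074

open MeasureTheory Set Metric
open scoped RealInnerProductSpace ENNReal

variable {d : ℕ} {K : Set (E d)}

noncomputable def chi (K : Set (E d)) (v x : E d) : ℝ := K.indicator (fun _ => (1 : ℝ)) (x + v)

lemma chi_cases (v x : E d) : chi K v x = 0 ∨ chi K v x = 1 := by
  unfold chi
  by_cases h : x + v ∈ K <;> simp [h]

lemma chi_meas (hK : Good K) (v : E d) : Measurable (chi K v) :=
  (measurable_const.indicator hK.meas).comp (measurable_add_const v)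

lemma chi_int (hK : Good K) (v : E d) {f : E d → ℝ} (hf : Continuous f) :
    Integrable (fun x => chi K v x * f x) (unif K) := by
  refine (hK.integrable hf).bdd_mul (c := 1) (chi_meas hK v).aestronglyMeasurable ?_
  refine Filter.Eventually.of_forall fun x => ?_
  rcases chi_cases (K := K) v x with h | h <;> simp [h]

lemma chi_shift (hK : Good K) (v : E d) (f : E d → ℝ) :
    ∫ x, chi K v x * f (x + v) ∂(unif K) = ∫ x, chi K (-v) x * f x ∂(unif K) := by
  unfold unif
  simp only [integral_smul_measure]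
  congr 1
  rw [← integral_indicator hK.meas, ← integral_indicator hK.meas,
    ← integral_add_right_eq_self (K.indicator fun x => chi K (-v) x * f x) v]
  congr 1
  ext x
  unfold chi
  by_cases h1 : x ∈ K <;> by_cases h2 : x + v ∈ K <;> simp [h1, h2]

lemma chi_mass (hK : Good K) {c : E d} {r : ℝ} (hc : closedBall c r ⊆ K) {v : E d}
    (v0 : 0 < ‖v‖) (vr : ‖v‖ ≤ r) : 1 - d * (‖v‖ / r) ≤ ∫ x, chi K v x ∂(unif K) := by
  have r0 : 0 < r := lt_of_lt_of_le v0 vr
  set s := ‖v‖ / r with hs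
  have s0 : 0 < s := by positivity
  have s1 : s ≤ 1 := (div_le_one r0).2 vr
  have hm : MeasurableSet ((fun x => x + v) ⁻¹' K) := hK.meas.preimage (measurable_add_const v)
  have e1 : ∫ x, chi K v x ∂(unif K) = (unif K).real ((fun x => x + v) ⁻¹' K) := by
    rw [← integral_indicator_one hm]
    congr 1
  have h1 : AffineMap.homothety c (1 - s) '' K ⊆ (fun x => x + v) ⁻¹' K ∩ K := by
    rintro _ ⟨y, hy, rfl⟩
    have c1 : c ∈ K := hc (mem_closedBall_self r0.le)
    have c2 : c + s⁻¹ • v ∈ K := by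
      refine hc ?_
      rw [mem_closedBall, dist_eq_norm, add_sub_cancel_left, norm_smul, Real.norm_of_nonneg
        (by positivity), hs]
      field_simp
      rfl
    have k1 := hK.convex hy c1 (a := 1 - s) (b := s) (by linarith) s0.le (by ring)
    have k2 := hK.convex hy c2 (a := 1 - s) (b := s) (by linarith) s0.le (by ring)
    constructor
    · rw [mem_preimage]
      convert k2 using 1
      rw [AffineMap.homothety_apply, smul_add, smul_smul, mul_inv_cancel₀ s0.ne']
      simp only [vsub_eq_sub, vadd_eq_add]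
      module
    · convert k1 using 1
      rw [AffineMap.homothety_apply]
      simp only [vsub_eq_sub, vadd_eq_add]
      module
  have h2 := measure_mono (μ := volume) h1
  rw [Measure.addHaar_image_homothety, finrank_euclideanSpace, Fintype.card_fin,
    abs_of_nonneg (pow_nonneg (by linarith) _)] at h2
  have h3 : ENNReal.ofReal ((1 - s) ^ d) ≤ unif K ((fun x => x + v) ⁻¹' K) := by
    unfold unif
    rw [Measure.smul_apply, Measure.restrict_apply hm, smul_eq_mul,
      ← ENNReal.div_eq_inv_mul, ENNReal.le_div_iff_mul_le (Or.inl hK.pos) (Or.inl hK.ne_top)]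
    exact h2
  have := hK.prob
  rw [ENNReal.ofReal_le_iff_le_toReal (measure_ne_top _ _)] at h3
  rw [e1]
  refine le_trans ?_ h3
  have := one_add_mul_le_pow (a := -s) (by linarith) d
  simp only [← sub_eq_add_neg] at this
  linarith

lemma alg1 {A B S0 S1 H G : ℝ} (t0 : 0 ≤ S0) (t1 : 0 ≤ S1) (t2 : S0 ≤ 2 * H) (t3 : S1 ≤ 2 * H)
    (e2 : S0 + S1 ≤ G) : ((A - B) + (S1 - S0)) ^ 2
      ≤ 4 * H ^ 2 * (1 - 1) + 4 * (1 * A ^ 2) + 4 * B ^ 2 + 4 * H * G := by
  have e3 : (S1 - S0) ^ 2 ≤ 2 * H * (S0 + S1) := by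
    nlinarith [mul_nonneg t0 t1, mul_le_mul_of_nonneg_left t2 t0,
      mul_le_mul_of_nonneg_left t3 t1]
  have e4 := mul_le_mul_of_nonneg_left e2 (by linarith : 0 ≤ H)
  nlinarith [sq_nonneg ((A - B) - (S1 - S0)), sq_nonneg (A + B)]

lemma alg2 {A B H U : ℝ} (a : -H ≤ A ∧ A ≤ H) (b : -H ≤ B ∧ B ≤ H) :
    (A - B) ^ 2 ≤ 4 * H ^ 2 + 4 * U ^ 2 := by
  have : (A - B) ^ 2 ≤ (2 * H) ^ 2 := sq_le_sq' (by linarith) (by linarith)
  nlinarith [sq_nonneg U]

set_option maxHeartbeats 800000 in
lemma gn_dir (hK : Good K) {c : E d} {r L : ℝ} (hc : closedBall c r ⊆ K)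
    {φ0 φ1 : E d → ℝ} {T0 T1 : E d → E d} (h0 : IsPot K L φ0 T0) (h1 : IsPot K L φ1 T1)
    (a : ℝ) {v : E d} (v0 : 0 < ‖v‖) (vr : ‖v‖ ≤ r) :
    ∫ x, ⟪T0 x - T1 x, v⟫ ^ 2 ∂(unif K)
      ≤ 8 * ∫ x, (φ0 x - φ1 x - a) ^ 2 ∂(unif K) + 20 * (L * ‖v‖) ^ 2 * (d * (‖v‖ / r)) := by
  have := hK.prob
  have c0 := h0.cont
  have c1 := h1.cont
  obtain ⟨x0, hx0⟩ := h0.ae.exists
  have L0 : 0 ≤ L := le_trans (norm_nonneg _) hx0.1
  set H := L * ‖v‖ with hH
  have H0 : 0 ≤ H := by positivity
  set δ := d * (‖v‖ / r) with hδ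
  have m1 := chi_mass hK hc v0 vr
  have m2 := chi_mass hK hc (v := -v) (by rwa [norm_neg]) (by rwa [norm_neg])
  rw [norm_neg] at m2
  rw [← hδ] at m1 m2
  have ic : ∀ w, Integrable (chi K w) (unif K) := fun w => by
    simpa using chi_int hK w (f := fun _ => 1) continuous_const
  set u : E d → ℝ := fun x => φ0 x - φ1 x - a with hu
  have uc : Continuous u := by rw [hu]; fun_prop
  set g : E d → ℝ := fun x => (φ0 x - φ0 (x - v)) + (φ1 x - φ1 (x - v)) with hg
  have gc : Continuous g := by rw [hg]; fun_prop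
  have gb : ∀ x, |g x| ≤ 2 * H := by
    intro x
    have b1 := h0.lip x (x - v)
    have b2 := h0.lip (x - v) x
    have b3 := h1.lip x (x - v)
    have b4 := h1.lip (x - v) x
    rw [sub_sub_cancel] at b1 b3
    rw [sub_sub_cancel_left, norm_neg] at b2 b4
    rw [abs_le]
    simp only [hg]
    constructor <;> linarith
  have i1 := chi_int hK v (f := fun x => u (x + v) ^ 2) (by fun_prop)
  have i2 := chi_int hK v (f := fun x => g (x + v)) (by fun_prop)
  have i3 := chi_int hK v gc
  have i4 := chi_int hK (-v) gc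
  have i5 := hK.integrable (f := fun x => u x ^ 2) (by fun_prop)
  have a1 : ∫ x, chi K v x * u (x + v) ^ 2 ∂(unif K) ≤ ∫ x, u x ^ 2 ∂(unif K) := by
    rw [chi_shift hK v (fun x => u x ^ 2)]
    refine integral_mono (chi_int hK _ (by fun_prop)) i5 fun x => ?_
    rcases chi_cases (K := K) (-v) x with h | h <;> simp [h, sq_nonneg]
  have a2 : ∫ x, chi K v x * g (x + v) ∂(unif K) - ∫ x, chi K v x * g x ∂(unif K)
      ≤ 2 * H * (2 * δ) := by
    rw [chi_shift hK v g, ← integral_sub i4 i3]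
    have j1 : Integrable (fun x => 2 - chi K v x) (unif K) := (integrable_const _).sub (ic v)
    have j2 : Integrable (fun x => 2 - chi K v x - chi K (-v) x) (unif K) := j1.sub (ic (-v))
    have : ∫ x, (chi K (-v) x * g x - chi K v x * g x) ∂(unif K)
        ≤ ∫ x, 2 * H * (2 - chi K v x - chi K (-v) x) ∂(unif K) := by
      refine integral_mono (i4.sub i3) (j2.const_mul _) fun x => ?_
      have := abs_le.1 (gb x)
      rcases chi_cases (K := K) (-v) x with h | h <;>
        rcases chi_cases (K := K) v x with h' | h' <;> simp only [h, h'] <;> linarith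
    rw [integral_const_mul, integral_sub j1 (ic _), integral_sub (integrable_const _) (ic _),
      hK.integral_const] at this
    refine le_trans this (mul_le_mul_of_nonneg_left (by linarith) (by positivity))
  have j3 : Integrable (fun x => 4 * H ^ 2 * (1 - chi K v x)) (unif K) :=
    ((integrable_const _).sub (ic v)).const_mul _
  have j4 : Integrable (fun x => 4 * (chi K v x * u (x + v) ^ 2)) (unif K) := i1.const_mul _
  have j5 : Integrable (fun x => 4 * u x ^ 2) (unif K) := i5.const_mul _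
  have j6 : Integrable (fun x => chi K v x * g (x + v) - chi K v x * g x) (unif K) := i2.sub i3
  have j7 : Integrable (fun x => 4 * H * (chi K v x * g (x + v) - chi K v x * g x)) (unif K) :=
    j6.const_mul _
  have j8 : Integrable (fun x => 4 * H ^ 2 * (1 - chi K v x) + 4 * (chi K v x * u (x + v) ^ 2))
    (unif K) := j3.add j4
  have j9 : Integrable (fun x => 4 * H ^ 2 * (1 - chi K v x) + 4 * (chi K v x * u (x + v) ^ 2)
    + 4 * u x ^ 2) (unif K) := j8.add j5
  have a3 : ∫ x, ⟪T0 x - T1 x, v⟫ ^ 2 ∂(unif K)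
      ≤ ∫ x, (4 * H ^ 2 * (1 - chi K v x) + 4 * (chi K v x * u (x + v) ^ 2) + 4 * u x ^ 2
        + 4 * H * (chi K v x * g (x + v) - chi K v x * g x)) ∂(unif K) := by
    refine integral_mono_of_nonneg (Filter.Eventually.of_forall fun x => sq_nonneg _)
      (j9.add j7) ?_
    filter_upwards [h0.ae, h1.ae] with x p0 p1
    have n0 : |⟪T0 x, v⟫| ≤ H :=
      le_trans (abs_real_inner_le_norm _ _) (mul_le_mul_of_nonneg_right p0.1 (norm_nonneg _))
    have n1 : |⟪T1 x, v⟫| ≤ H :=
      le_trans (abs_real_inner_le_norm _ _) (mul_le_mul_of_nonneg_right p1.1 (norm_nonneg _))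
    rw [abs_le] at n0 n1
    rw [inner_sub_left]
    rcases chi_cases (K := K) v x with h | h
    · simp only [h]
      linarith [alg2 (U := u x) n0 n1]
    · have b1 := p0.2 (x + v)
      have b2 := p0.2 (x - v)
      have b3 := p1.2 (x + v)
      have b4 := p1.2 (x - v)
      have b5 := h0.lip (x + v) x
      have b6 := h1.lip (x + v) x
      rw [add_sub_cancel_left] at b1 b3 b5 b6
      rw [sub_sub_cancel_left, inner_neg_right] at b2 b4
      set S0 := φ0 (x + v) - φ0 x - ⟪T0 x, v⟫ with hS0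
      set S1 := φ1 (x + v) - φ1 x - ⟪T1 x, v⟫ with hS1
      have e1 : ⟪T0 x, v⟫ - ⟪T1 x, v⟫ = (u (x + v) - u x) + (S1 - S0) := by
        simp only [hu, hS0, hS1]; ring
      have e2 : S0 + S1 ≤ g (x + v) - g x := by
        simp only [hg, hS0, hS1, add_sub_cancel_right]; linarith
      rw [e1]
      simp only [h, one_mul (g _)]
      exact alg1 (by linarith) (by linarith) (by linarith) (by linarith) e2
  rw [integral_add j9 j7, integral_add j8 j5, integral_add j3 j4, integral_const_mul,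
    integral_const_mul, integral_const_mul, integral_const_mul, integral_sub i2 i3,
    integral_sub (integrable_const _) (ic v), hK.integral_const] at a3
  have f1 := mul_le_mul_of_nonneg_left a2 (by positivity : 0 ≤ 4 * H)
  have f2 := mul_le_mul_of_nonneg_left (by linarith : 1 - ∫ x, chi K v x ∂(unif K) ≤ δ)
    (by positivity : 0 ≤ 4 * H ^ 2)
  linarith

lemma gn (hK : Good K) {c : E d} {r L : ℝ} (hc : closedBall c r ⊆ K)
    {φ0 φ1 : E d → ℝ} {T0 T1 : E d → E d} (h0 : IsPot K L φ0 T0) (h1 : IsPot K L φ1 T1)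
    (a : ℝ) {h : ℝ} (h0' : 0 < h) (hr : h ≤ r) :
    h ^ 2 * ∫ x, ‖T0 x - T1 x‖ ^ 2 ∂(unif K)
      ≤ d * (8 * ∫ x, (φ0 x - φ1 x - a) ^ 2 ∂(unif K) + 20 * (L * h) ^ 2 * (d * (h / r))) := by
  have := hK.prob
  have nv : ∀ j : Fin d, ‖h • (EuclideanSpace.single j (1 : ℝ) : E d)‖ = h := by
    intro j
    rw [norm_smul, Real.norm_of_nonneg h0'.le]
    simp
  have e : ∀ x, h ^ 2 * ‖T0 x - T1 x‖ ^ 2
      = ∑ j : Fin d, ⟪T0 x - T1 x, h • (EuclideanSpace.single j (1 : ℝ) : E d)⟫ ^ 2 := by
    intro x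
    rw [EuclideanSpace.real_norm_sq_eq, Finset.mul_sum]
    refine Finset.sum_congr rfl fun j _ => ?_
    rw [inner_smul_right, EuclideanSpace.inner_single_right]
    simp [mul_pow]
  have ij : ∀ j : Fin d, Integrable
      (fun x => ⟪T0 x - T1 x, h • (EuclideanSpace.single j (1 : ℝ) : E d)⟫ ^ 2) (unif K) := by
    intro j
    refine Integrable.of_bound (((h0.meas.sub h1.meas).inner measurable_const).pow_const
      2).aestronglyMeasurable ((2 * L * h) ^ 2) ?_
    filter_upwards [h0.ae, h1.ae] with x p0 p1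
    rw [Real.norm_of_nonneg (sq_nonneg _), ← sq_abs]
    refine pow_le_pow_left₀ (abs_nonneg _) (le_trans (abs_real_inner_le_norm _ _) ?_) 2
    rw [nv j]
    exact mul_le_mul_of_nonneg_right (by linarith [norm_sub_le (T0 x) (T1 x), p0.1, p1.1]) h0'.le
  rw [← integral_const_mul]
  simp only [e]
  rw [integral_finsetSum _ fun j _ => ij j]
  refine le_trans (Finset.sum_le_sum fun j _ => gn_dir hK hc h0 h1 a (by rwa [nv j])
    (by rwa [nv j])) ?_
  simp only [nv]
  simp [mul_add]

end Vale.Agent.P074
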