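import Vale.Agent.P074.Approx

namespace Vale.Agent.P074

open MeasureTheory Set
open scoped RealInnerProductSpace ENNReal

variable {d : ℕ} {K : Set (E d)}

lemma integrable_fin_comp {α : Type*} [MeasurableSpace α] (μ : Measure α) [IsFiniteMeasure μ]
    {C : Type*} [Finite C] [MeasurableSpace C] [MeasurableSingletonClass C] {c : α → C}
    (hc : Measurable c) (F : C → ℝ) : Integrable (fun x => F (c x)) μ :=
  (Integrable.of_finite (μ := μ.map c) (f := F)).comp_measurable hc

lemma gap (hK : Good K) {R L η β γ : ℝ} (hR : ∀ x ∈ K, ‖x‖ ≤ R) (β0 : 0 < β)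
    {φ : E d → ℝ} {T : E d → E d} (hT : IsPot K L φ T)
    {C : Type*} [Finite C] [MeasurableSpace C] [MeasurableSingletonClass C]
    {c : E d → C} (hc : Measurable c) {q : C → E d} (qL : ∀ b, ‖q b‖ ≤ L)
    (hq : ∀ᵐ x ∂(unif K), ‖T x - q (c x)‖ ≤ η)
    {ι : Type*} [Fintype ι] [Nonempty ι] (a : ι → C) {m : ι → ℝ}
    (hF : ∀ F : C → ℝ, ∑ i, m i * F (a i) = ∫ x, F (c x) ∂(unif K)) (m0 : ∀ i, 0 < m i)
    {w : E d → ℝ} (hw : Continuous w) (w0 : ∫ x, w x ∂(unif K) = 0) (wγ : ∀ x ∈ K, |w x| ≤ γ)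
    (γ1 : γ ≤ 1 / 2) {ψ : ι → ℝ} (hψ : Opt K m (fun x => 1 + w x) (fun i => β • q (a i)) ψ) :
    ∃ G : E d → ℝ, Integrable G (unif K) ∧
      (∀ᵐ x ∂(unif K), ∀ x' ∈ K, pot (fun i => β • q (a i)) ψ x / β + ⟪T x, x' - x⟫ - G x
        ≤ pot (fun i => β • q (a i)) ψ x' / β) ∧
      ∫ x, G x ∂(unif K) ≤ Real.log (Fintype.card ι) / β + 2 * R * η + γ * (4 * L * R) := by
  classical
  have := hK.prob
  have φc := hT.cont
  obtain ⟨x0, hx0⟩ := hK.ae_mem.exists
  have R0 : 0 ≤ R := le_trans (norm_nonneg _) (hR x0 hx0)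
  have γ0 : 0 ≤ γ := le_trans (abs_nonneg _) (wγ x0 hx0)
  have L0 : 0 ≤ L := le_trans (norm_nonneg _) (qL (c x0))
  set y : ι → E d := fun i => β • q (a i) with hy
  have hmin : ∀ b : C, ∃ t : ℝ, (∀ i, a i = b → t ≤ ψ i) ∧
      ((∃ i, a i = b) → ∃ i, a i = b ∧ t = ψ i) := by
    intro b
    by_cases h : ∃ i, a i = b
    · obtain ⟨i, hi, hi2⟩ := Finset.exists_min_image (Finset.univ.filter fun i => a i = b) ψ
        (by obtain ⟨i, hi⟩ := h; exact ⟨i, by simpa using hi⟩)
      exact ⟨ψ i, fun j hj => hi2 j (by simpa using hj), fun _ => ⟨i, by simpa using hi, rfl⟩⟩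
    · exact ⟨0, fun i hi => absurd ⟨i, hi⟩ h, fun h' => absurd h' h⟩
  choose χ hχ1 hχ2 using hmin
  have hmax : ∀ b : C, ∃ x1 ∈ K, ∀ x ∈ K, ⟪x, q b⟫ - φ x ≤ ⟪x1, q b⟫ - φ x1 := by
    intro b
    obtain ⟨x1, h1, h2⟩ := hK.compact.exists_isMaxOn ⟨x0, hx0⟩
      (f := fun x => ⟪x, q b⟫ - φ x) (by fun_prop)
    exact ⟨x1, h1, fun x hx => h2 hx⟩
  choose x1 hx1 hx2 using hmax
  set φs : C → ℝ := fun b => ⟪x1 b, q b⟫ - φ (x1 b) with hφs
  have fib : ∀ᵐ x ∂(unif K), ∃ i, a i = c x := by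
    have h1 := hF (fun b => if ∃ i, a i = b then 0 else 1)
    have h2 : ∑ i, m i * (if ∃ j, a j = a i then (0 : ℝ) else 1) = 0 :=
      Finset.sum_eq_zero fun i _ => by rw [if_pos ⟨i, rfl⟩, mul_zero]
    rw [h2, eq_comm, integral_eq_zero_iff_of_nonneg (fun x => by
      simp only [Pi.zero_apply]; split_ifs <;> norm_num)
      (integrable_fin_comp _ hc (fun b => if ∃ i, a i = b then (0 : ℝ) else 1))] at h1
    filter_upwards [h1] with x hx
    by_contra h
    simp [h] at hx
  have iT : Integrable (fun x => ⟪x, T x⟫) (unif K) := by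
    refine Integrable.of_bound (measurable_id.inner hT.meas).aestronglyMeasurable (R * L) ?_
    filter_upwards [hK.ae_mem, hT.ae] with x h1 h2
    exact le_trans (abs_real_inner_le_norm _ _) (mul_le_mul (hR x h1) h2.1 (norm_nonneg _) R0)
  have i1 : Integrable (fun x => pot y ψ x / β) (unif K) := hK.integrable (by fun_prop)
  have i2 : Integrable (fun x => χ (c x) / β) (unif K) :=
    integrable_fin_comp _ hc (fun b => χ b / β)
  have i3 : Integrable (fun x => pot y ψ x / β + χ (c x) / β) (unif K) := i1.add i2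
  have i4 : Integrable (fun x => pot y ψ x / β + χ (c x) / β - ⟪x, T x⟫) (unif K) := i3.sub iT
  have i5 : Integrable (fun x => ⟪x, T x⟫ - φ x) (unif K) := iT.sub (hK.integrable φc)
  refine ⟨fun x => pot y ψ x / β + χ (c x) / β - ⟪x, T x⟫ + R * η,
    i4.add (integrable_const _), ?_, ?_⟩
  · filter_upwards [fib, hq] with x h1 h2 x' hx'
    obtain ⟨i, hi1, hi2⟩ := hχ2 _ h1
    have a1 := le_lse (aff y ψ x') i
    change ⟪x', β • q (a i)⟫ - ψ i ≤ pot y ψ x' at a1
    rw [inner_smul_right, hi1, ← hi2] at a1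
    have a2 : ⟪x', q (c x)⟫ - χ (c x) / β ≤ pot y ψ x' / β := by
      rw [le_div_iff₀ β0, sub_mul, div_mul_cancel₀ _ β0.ne']
      linarith
    have a3 : ⟪x', T x - q (c x)⟫ ≤ R * η :=
      le_trans (real_inner_le_norm _ _) (mul_le_mul (hR x' hx') h2 (norm_nonneg _) R0)
    rw [inner_sub_right] at a3
    rw [inner_sub_right, real_inner_comm x' (T x), real_inner_comm x (T x)]
    linarith
  · rw [integral_add i4 (integrable_const _), integral_sub i3 iT,
      integral_add i1 i2, hK.integral_const, integral_div, integral_div, ← hF χ]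
    have θ0 : ∀ x ∈ K, 0 ≤ 1 + w x := fun x hx => by
      linarith [neg_abs_le (w x), wγ x hx]
    have a1 := hψ.le hK (by fun_prop) θ0 (fun i => β * φs (a i))
    have a2 : ∫ x, (1 + w x) * pot y (fun i => β * φs (a i)) x ∂(unif K)
        ≤ ∫ x, (1 + w x) * (Real.log (Fintype.card ι) + β * φ x) ∂(unif K) := by
      refine hK.integral_mono (by fun_prop) (by fun_prop) fun x hx => ?_
      refine mul_le_mul_of_nonneg_left (lse_le _ _ fun i => ?_) (θ0 x hx)
      change ⟪x, β • q (a i)⟫ - β * φs (a i) ≤ _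
      rw [inner_smul_right]
      have := mul_le_mul_of_nonneg_left (hx2 (a i) x hx) β0.le
      simp only [hφs]
      linarith
    have a3 : ∫ x, φs (c x) ∂(unif K) ≤ ∫ x, (⟪x, T x⟫ - φ x + R * η) ∂(unif K) := by
      refine integral_mono_ae (integrable_fin_comp _ hc φs)
        (i5.add (integrable_const _)) ?_
      filter_upwards [hT.ae, hq] with x h1 h2
      have b1 := h1.2 (x1 (c x))
      have b2 : ⟪x1 (c x), q (c x) - T x⟫ ≤ R * η := by
        refine le_trans (real_inner_le_norm _ _) (mul_le_mul (hR _ (hx1 _)) ?_ (norm_nonneg _) R0)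
        rwa [norm_sub_rev]
      rw [inner_sub_right] at b1 b2
      rw [real_inner_comm (x1 (c x)) (T x), real_inner_comm x (T x)] at b1
      simp only [hφs]
      linarith
    rw [integral_add i5 (integrable_const _),
      integral_sub iT (hK.integrable φc), hK.integral_const, ← hF φs] at a3
    have a4 : ∑ i, m i * χ (a i) ≤ ∑ i, m i * ψ i :=
      Finset.sum_le_sum fun i _ => mul_le_mul_of_nonneg_left (hχ1 _ i rfl) (m0 i).le
    have lipp : ∀ x x', pot y ψ x ≤ pot y ψ x' + β * (L * ‖x - x'‖) := by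
      intro x x'
      refine lse_le_add _ _ _ fun i => ?_
      change ⟪x, β • q (a i)⟫ - ψ i ≤ ⟪x', β • q (a i)⟫ - ψ i + _
      rw [inner_smul_right, inner_smul_right]
      have b1 : ⟪x - x', q (a i)⟫ ≤ L * ‖x - x'‖ := by
        rw [mul_comm]
        exact le_trans (real_inner_le_norm _ _) (mul_le_mul_of_nonneg_left (qL _) (norm_nonneg _))
      rw [inner_sub_left] at b1
      have := mul_le_mul_of_nonneg_left b1 β0.le
      linarith
    have a5 : ∫ x, (w x * (β * φ x) - w x * pot y ψ x - w x * (β * φ x0 - pot y ψ x0)) ∂(unif K)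
        ≤ ∫ _x, β * (γ * (4 * L * R)) ∂(unif K) := by
      refine hK.integral_mono (by fun_prop) (by fun_prop) fun x hx => ?_
      rw [← mul_sub, ← mul_sub]
      refine le_trans (le_abs_self _) ?_
      rw [abs_mul]
      have n1 : ‖x - x0‖ ≤ 2 * R := by linarith [norm_sub_le x x0, hR x hx, hR x0 hx0]
      have n2 : L * ‖x - x0‖ ≤ L * (2 * R) := mul_le_mul_of_nonneg_left n1 L0
      have n3 := mul_le_mul_of_nonneg_left n2 β0.le
      have b1 := mul_le_mul_of_nonneg_left (hT.lip x x0) β0.le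
      have b2 := mul_le_mul_of_nonneg_left (hT.lip x0 x) β0.le
      have b3 := lipp x x0
      have b4 := lipp x0 x
      rw [norm_sub_rev x0 x] at b2 b4
      have b5 : |β * φ x - pot y ψ x - (β * φ x0 - pot y ψ x0)| ≤ β * (4 * L * R) := by
        rw [abs_le]; constructor <;> linarith
      calc _ ≤ γ * (β * (4 * L * R)) := mul_le_mul (wγ x hx) b5 (abs_nonneg _) γ0
        _ = _ := by ring
    rw [hK.integral_sub (by fun_prop) (by fun_prop), hK.integral_sub (by fun_prop) (by fun_prop),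
      integral_mul_const, w0, hK.integral_const] at a5
    unfold Val at a1
    simp only [add_mul, one_mul, mul_add] at a1 a2
    rw [hK.integral_add (by fun_prop) (by fun_prop)] at a1
    rw [hK.integral_add (f := fun x => Real.log (Fintype.card ι) + w x * Real.log (Fintype.card ι))
      (by fun_prop) (by fun_prop), hK.integral_add (f := fun x => β * φ x) (by fun_prop)
      (by fun_prop), hK.integral_add (f := fun _ => Real.log (Fintype.card ι)) (by fun_prop)
      (by fun_prop), integral_mul_const, w0, hK.integral_const, integral_const_mul] at a2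
    have a6 : ∑ i, m i * (β * φs (a i)) = β * ∑ i, m i * φs (a i) := by
      rw [Finset.mul_sum]; exact Finset.sum_congr rfl fun i _ => by ring
    have a7 := mul_le_mul_of_nonneg_left a3 β0.le
    refine le_of_mul_le_mul_left ?_ β0
    have e1 : ∀ t : ℝ, β * (t / β) = t := fun t => mul_div_cancel₀ _ β0.ne'
    simp only [mul_add, mul_sub, e1] at a7 ⊢
    linarith

lemma exists_quantizer {Y : Set (E d)} (hY : IsCompact Y) (Yn : Y.Nonempty) {η : ℝ} (η0 : 0 < η) :
    ∃ (N : ℕ) (q : Fin (N + 1) → E d) (r : E d → Fin (N + 1)), (∀ b, q b ∈ Y) ∧ Measurable r ∧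
      ∀ y ∈ Y, ‖y - q (r y)‖ ≤ η := by
  obtain ⟨t, ht1, ht2, ht3⟩ := finite_cover_balls_of_compact hY η0
  obtain ⟨y0, hy0⟩ := Yn
  obtain ⟨N, f, -, hf⟩ := ht2.fin_param
  set e : ℕ → E d := fun k => if h : k < N then f ⟨k, h⟩ else y0 with he
  have eY : ∀ k, e k ∈ Y := by
    intro k
    simp only [he]
    split_ifs with h
    · exact ht1 (hf ▸ mem_range_self _)
    · exact hy0
  refine ⟨N, fun b => e b, fun y => ⟨SimpleFunc.nearestPtInd e N y,
    Nat.lt_succ_of_le (SimpleFunc.nearestPtInd_le e N y)⟩, fun b => eY b, ?_, ?_⟩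
  · refine measurable_to_countable' fun b => ?_
    have : (fun y => (⟨SimpleFunc.nearestPtInd e N y,
        Nat.lt_succ_of_le (SimpleFunc.nearestPtInd_le e N y)⟩ : Fin (N + 1))) ⁻¹' {b}
        = SimpleFunc.nearestPtInd e N ⁻¹' {b.1} := by
      ext y; simp [Fin.ext_iff]
    rw [this]
    exact SimpleFunc.measurableSet_preimage _ _
  · intro y hy
    obtain ⟨z, hz1, hz2⟩ := mem_iUnion₂.1 (ht3 hy)
    rw [← hf] at hz1
    obtain ⟨k, rfl⟩ := hz1
    have h1 := SimpleFunc.edist_nearestPt_le e y (k := k.1) (N := N) k.2.le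
    have h2 : e k.1 = f k := by simp [he]
    rw [h2, edist_dist, edist_dist, ENNReal.ofReal_le_ofReal_iff dist_nonneg] at h1
    have h3 : dist (f k) y < η := by rw [dist_comm]; exact hz2
    rw [← dist_eq_norm, dist_comm]
    exact le_trans h1 h3.le

end Vale.Agent.P074
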