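import Vale.Agent.P074.Cyc

namespace Vale.Agent.P074

open MeasureTheory Set Metric Filter Topology
open scoped RealInnerProductSpace ENNReal NNReal

variable {d : ℕ} {K : Set (E d)}

lemma opt_h {I W A B D r : ℝ} (W0 : 0 ≤ W) (A0 : 0 ≤ A) (B0 : 0 ≤ B) (D0 : 0 ≤ D) (r0 : 0 < r)
    (h1 : ∀ h, 0 < h → h ≤ r → h ^ 2 * I ≤ A * W + B * h ^ 3) (h2 : I ≤ D) :
    I ≤ (A + B + D / r) * W ^ (1 / 3 : ℝ) := by
  set t := W ^ (1 / 3 : ℝ) with ht
  have t0 : 0 ≤ t := Real.rpow_nonneg W0 _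
  have t3 : t ^ 3 = W := by
    rw [ht, ← Real.rpow_natCast, ← Real.rpow_mul W0]
    norm_num
  have Dr : 0 ≤ D / r := by positivity
  rcases t0.eq_or_lt with h | h
  · rw [← h, mul_zero]
    have W1 : W = 0 := by rw [← t3, ← h]; norm_num
    refine le_of_forall_pos_le_add fun ε ε0 => ?_
    have m0 : 0 < min r (ε / (B + 1)) := lt_min r0 (by positivity)
    have := h1 _ m0 (min_le_left _ _)
    have m1 : min r (ε / (B + 1)) * (B + 1) ≤ ε := by
      rw [← le_div_iff₀ (by positivity)]; exact min_le_right _ _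
    set m := min r (ε / (B + 1))
    have : I ≤ B * m := by
      refine le_of_mul_le_mul_left ?_ (pow_pos m0 2)
      rw [W1] at this
      linarith
    nlinarith
  · rcases le_or_gt t r with h' | h'
    · have := h1 t h h'
      have : I ≤ (A + B) * t := by
        refine le_of_mul_le_mul_left ?_ (pow_pos h 2)
        rw [← t3] at this
        linarith
      nlinarith
    · have : D ≤ D / r * t := by
        rw [div_mul_eq_mul_div, le_div_iff₀ r0]
        exact mul_le_mul_of_nonneg_left h'.le D0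
      nlinarith

theorem admissible_third (hd : 1 ≤ d) : Admissible d (1 / 3) := by
  intro K K1 K2 K3 Y Y1 Y2
  have hK : Good K := ⟨K1, K2, (Measure.measure_pos_of_nonempty_interior _ K3).ne'⟩
  have := hK.prob
  obtain ⟨c, hc⟩ := K3
  obtain ⟨r', r'0, hr'⟩ := Metric.isOpen_iff.1 isOpen_interior c hc
  set r := r' / 2 with hr
  have r0 : 0 < r := by positivity
  have hb : closedBall c r ⊆ K :=
    (closedBall_subset_ball (by linarith)).trans (hr'.trans interior_subset)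
  obtain ⟨R, R0, hR⟩ := K1.isBounded.exists_pos_norm_le
  obtain ⟨L, L0, hL⟩ := Y1.isBounded.exists_pos_norm_le
  set C : ℝ := d * (8 * (20000 * R ^ 2)) + d * (20 * L ^ 2 * (d / r)) + (2 * L) ^ 2 / r with hC
  have C0 : 0 < C := by positivity
  refine ⟨(C ^ (1 / 2 : ℝ)).toNNReal, ?_⟩
  intro μ ν _ _ μY νY T S hT hS
  have Y0' : ∀ᵐ y ∂((unif K).map T), y ∈ Y := by rw [hT.2.1]; exact μY
  have Y1' : ∀ᵐ y ∂((unif K).map S), y ∈ Y := by rw [hS.2.1]; exact νY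
  have b0 : ∀ᵐ x ∂(unif K), ‖T x‖ ≤ L :=
    (ae_of_ae_map hT.1.aemeasurable Y0').mono fun x hx => hL _ hx
  have b1 : ∀ᵐ x ∂(unif K), ‖S x‖ ≤ L :=
    (ae_of_ae_map hS.1.aemeasurable Y1').mono fun x hx => hL _ hx
  have he : ‖(EuclideanSpace.single (⟨0, hd⟩ : Fin d) (1 : ℝ) : E d)‖ = 1 := by simp
  obtain ⟨φ0, h0⟩ := exists_pot hK hT b0 he
  obtain ⟨φ1, h1⟩ := exists_pot hK hS b1 he
  have bd : ∀ᵐ x ∂(unif K), ‖T x - S x‖ ^ 2 ≤ (2 * L) ^ 2 := by
    filter_upwards [b0, b1] with x p0 p1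
    exact pow_le_pow_left₀ (norm_nonneg _) (by linarith [norm_sub_le (T x) (S x)]) 2
  have iI : Integrable (fun x => ‖T x - S x‖ ^ 2) (unif K) :=
    Integrable.of_bound ((hT.1.sub hS.1).norm.pow_const 2).aestronglyMeasurable ((2 * L) ^ 2)
      (bd.mono fun x hx => by rwa [Real.norm_of_nonneg (sq_nonneg _)])
  have key : ∀ π : Measure (E d × E d), π.map Prod.fst = μ → π.map Prod.snd = ν →
      (∫⁻ x, ‖T x - S x‖ₑ ^ 2 ∂(unif K)) ^ (1 / 2 : ℝ) ≤ ((C ^ (1 / 2 : ℝ)).toNNReal : ℝ≥0∞) *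
        ((∫⁻ p, ‖p.1 - p.2‖ₑ ^ 2 ∂π) ^ (1 / 2 : ℝ)) ^ (1 / 3 : ℝ) := by
    intro π π0 π1
    have := prob_of_map measurable_fst π0
    rw [← hT.2.1] at π0
    rw [← hS.2.1] at π1
    obtain ⟨a, ha⟩ := pot_stab hK R0 hR h0 h1 Y1 Y2 hL Y0' Y1' π0 π1
    have a0 : ∀ᵐ p ∂π, p.1 ∈ Y := ae_of_ae_map measurable_fst.aemeasurable (by rw [π0]; exact Y0')
    have a1 : ∀ᵐ p ∂π, p.2 ∈ Y := ae_of_ae_map measurable_snd.aemeasurable (by rw [π1]; exact Y1')
    have iW : Integrable (fun p : E d × E d => ‖p.1 - p.2‖ ^ 2) π := by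
      refine Integrable.of_bound (by fun_prop) ((2 * L) ^ 2) ?_
      filter_upwards [a0, a1] with p p1 p2
      rw [Real.norm_of_nonneg (sq_nonneg _)]
      exact pow_le_pow_left₀ (norm_nonneg _)
        (by linarith [norm_sub_le p.1 p.2, hL _ p1, hL _ p2]) 2
    have W0 : 0 ≤ ∫ p : E d × E d, ‖p.1 - p.2‖ ^ 2 ∂π := integral_nonneg fun p => sq_nonneg _
    have I0 : 0 ≤ ∫ x, ‖T x - S x‖ ^ 2 ∂(unif K) := integral_nonneg fun p => sq_nonneg _
    have main : ∫ x, ‖T x - S x‖ ^ 2 ∂(unif K)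
        ≤ C * (∫ p : E d × E d, ‖p.1 - p.2‖ ^ 2 ∂π) ^ (1 / 3 : ℝ) := by
      refine opt_h W0 (by positivity) (by positivity) (by positivity) r0 (fun h h0' hr => ?_) ?_
      · refine le_trans (gn hK hb h0 h1 a h0' hr) ?_
        have := mul_le_mul_of_nonneg_left ha (by positivity : (0 : ℝ) ≤ d * 8)
        have e : (d : ℝ) * (20 * (L * h) ^ 2 * (d * (h / r)))
          = d * (20 * L ^ 2 * (d / r)) * h ^ 3 := by ring
        rw [mul_add, e]
        linarith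
      · simpa using integral_mono_ae iI (integrable_const _) bd
    rw [lintegral_sq_eq iI, lintegral_sq_eq iW, ← ENNReal.rpow_mul, mul_comm (1 / 2 : ℝ),
      ENNReal.rpow_mul, ENNReal.ofReal_rpow_of_nonneg W0 (by norm_num)]
    change _ ≤ ENNReal.ofReal _ * _
    rw [← ENNReal.ofReal_rpow_of_nonneg C0.le (by norm_num),
      ← ENNReal.mul_rpow_of_nonneg _ _ (by norm_num), ← ENNReal.ofReal_mul C0.le]
    exact ENNReal.rpow_le_rpow (ENNReal.ofReal_le_ofReal main) (by norm_num)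
  have n0 : (((C ^ (1 / 2 : ℝ)).toNNReal : ℝ≥0) : ℝ≥0∞) ≠ 0 := by
    simpa using Real.rpow_pos_of_pos C0 _
  rw [mul_comm, ← ENNReal.div_le_iff n0 ENNReal.coe_ne_top, one_div (3 : ℝ),
    ENNReal.le_rpow_inv_iff (by norm_num)]
  refine le_iInf₂ fun π hπ => ?_
  rw [← ENNReal.le_rpow_inv_iff (by norm_num), ENNReal.div_le_iff n0 ENNReal.coe_ne_top, mul_comm,
    ← one_div (3 : ℝ)]
  exact key π hπ.1 hπ.2

end Vale.Agent.P074
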