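import Vale.Agent.P074.Gap

namespace Vale.Agent.P074

open MeasureTheory Set
open scoped RealInnerProductSpace ENNReal

variable {d : ℕ} {K : Set (E d)}

lemma sum_atoms {α : Type*} [MeasurableSpace α] (π : Measure α) [IsProbabilityMeasure π]
    {C : Type*} [Fintype C] [DecidableEq C] [MeasurableSpace C] [MeasurableSingletonClass C]
    {k : α → C} (hk : Measurable k) (F : C → ℝ) :
    ∑ i : {b : C // (π.map k).real {b} ≠ 0}, (π.map k).real {i.1} * F i.1 = ∫ p, F (k p) ∂π := by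
  classical
  have h1 : ∫ p, F (k p) ∂π = ∫ b, F b ∂(π.map k) :=
    (integral_map hk.aemeasurable (measurable_of_finite F).aestronglyMeasurable).symm
  rw [h1, integral_fintype Integrable.of_finite]
  rw [← Finset.sum_subtype (Finset.univ.filter fun b : C => (π.map k).real {b} ≠ 0) (by simp)
    (fun b => (π.map k).real {b} * F b), Finset.sum_filter]
  refine Finset.sum_congr rfl fun b _ => ?_
  split_ifs with h
  · rfl
  · rw [not_not.1 h]; simp

lemma prob_of_map {α β : Type*} [MeasurableSpace α] [MeasurableSpace β] {π : Measure α}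
    {f : α → β} (hf : Measurable f) {μ : Measure β} [IsProbabilityMeasure μ] (h : π.map f = μ) :
    IsProbabilityMeasure π := by
  constructor
  have : π.map f univ = 1 := by rw [h]; exact measure_univ
  rwa [Measure.map_apply hf MeasurableSet.univ, preimage_univ] at this

set_option maxHeartbeats 800000 in
theorem pot_test (hK : Good K) {R L M : ℝ} (R0 : 0 < R) (hR : ∀ x ∈ K, ‖x‖ ≤ R) (M0 : 0 < M)
    {φ0 φ1 : E d → ℝ} {T0 T1 : E d → E d} (h0 : IsPot K L φ0 T0) (h1 : IsPot K L φ1 T1)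
    {Y : Set (E d)} (hY : IsCompact Y) (Yn : Y.Nonempty) (YL : ∀ y ∈ Y, ‖y‖ ≤ L)
    (Y0 : ∀ᵐ y ∂((unif K).map T0), y ∈ Y) (Y1 : ∀ᵐ y ∂((unif K).map T1), y ∈ Y)
    {π : Measure (E d × E d)} (π0 : π.map Prod.fst = (unif K).map T0)
    (π1 : π.map Prod.snd = (unif K).map T1)
    {u : E d → ℝ} (hu : Continuous u) (u0 : ∫ x, u x ∂(unif K) = 0) (uM : ∀ x ∈ K, |u x| ≤ M) :
    ∫ x, u x * (φ0 x - φ1 x) ∂(unif K)
      ≤ (∫ x, u x ^ 2 ∂(unif K)) / 2 + 10000 * R ^ 2 * ∫ p, ‖p.1 - p.2‖ ^ 2 ∂π := by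
  classical
  have := hK.prob
  have := Measure.isProbabilityMeasure_map (μ := unif K) h0.meas.aemeasurable
  have := prob_of_map measurable_fst π0
  have L0 : 0 ≤ L := by
    obtain ⟨y, hy⟩ := Yn
    exact le_trans (norm_nonneg _) (YL y hy)
  have c0 := h0.cont
  have c1 := h1.cont
  have a0 : ∀ᵐ p ∂π, p.1 ∈ Y := ae_of_ae_map measurable_fst.aemeasurable (by rw [π0]; exact Y0)
  have a1 : ∀ᵐ p ∂π, p.2 ∈ Y := ae_of_ae_map measurable_snd.aemeasurable (by rw [π1]; exact Y1)
  have b0 : ∀ᵐ x ∂(unif K), T0 x ∈ Y := ae_of_ae_map h0.meas.aemeasurable Y0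
  have b1 : ∀ᵐ x ∂(unif K), T1 x ∈ Y := ae_of_ae_map h1.meas.aemeasurable Y1
  have iW : Integrable (fun p : E d × E d => ‖p.1 - p.2‖ ^ 2) π := by
    refine Integrable.of_bound (by fun_prop) ((2 * L) ^ 2) ?_
    filter_upwards [a0, a1] with p p1 p2
    rw [Real.norm_of_nonneg (sq_nonneg _)]
    exact pow_le_pow_left₀ (norm_nonneg _) (by linarith [norm_sub_le p.1 p.2, YL _ p1, YL _ p2]) 2
  set A : ℝ := 40000 * R ^ 2 + 4 * M * (2 ^ d * (1 + 2 * R + 4 * L * R) + 4 * L * R) with hA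
  have key : ∀ N : ℕ, 2 ≤ N → ∫ x, u x * (φ0 x - φ1 x) ∂(unif K)
      ≤ (∫ x, u x ^ 2 ∂(unif K)) / 2 + 10000 * R ^ 2 * ∫ p, ‖p.1 - p.2‖ ^ 2 ∂π + A / N := by
    intro N hN
    have N2 : (2 : ℝ) ≤ N := by exact_mod_cast hN
    have N0 : (0 : ℝ) < N := by linarith
    set η : ℝ := 1 / (N : ℝ) ^ 2 with hη
    have η0 : 0 < η := by positivity
    have ηN : N * η = 1 / N := by rw [hη]; field_simp
    have η1 : η ≤ 1 / N := by
      rw [← ηN]; nlinarith
    have η2 : 1 / (N : ℝ) ≤ 1 / 2 := one_div_le_one_div_of_le (by norm_num) N2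
    obtain ⟨n, q, r, qY, hr, hq⟩ := exists_quantizer hY Yn η0
    set k : E d × E d → Fin (n + 1) × Fin (n + 1) := fun p => (r p.1, r p.2) with hk
    have km : Measurable k := by rw [hk]; fun_prop
    have hs := sum_atoms π km
    set m : {b // (π.map k).real {b} ≠ 0} → ℝ := fun i => (π.map k).real {i.1} with hm
    have m0 : ∀ i, 0 < m i := fun i => lt_of_le_of_ne measureReal_nonneg (Ne.symm i.2)
    have m1 : ∑ i, m i = 1 := by simpa using hs (fun _ => 1)
    have : Nonempty {b // (π.map k).real {b} ≠ 0} := by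
      by_contra h
      rw [not_nonempty_iff] at h
      simp at m1
    have F0 : ∀ F : Fin (n + 1) → ℝ, ∑ i, m i * F i.1.1 = ∫ x, F (r (T0 x)) ∂(unif K) := by
      intro F
      have mF : Measurable fun y => F (r y) := (measurable_of_finite F).comp hr
      rw [hs (fun b => F b.1), ← integral_map h0.meas.aemeasurable mF.aestronglyMeasurable, ← π0,
        integral_map measurable_fst.aemeasurable mF.aestronglyMeasurable]
    have F1 : ∀ F : Fin (n + 1) → ℝ, ∑ i, m i * F i.1.2 = ∫ x, F (r (T1 x)) ∂(unif K) := by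
      intro F
      have mF : Measurable fun y => F (r y) := (measurable_of_finite F).comp hr
      rw [hs (fun b => F b.2), ← integral_map h1.meas.aemeasurable mF.aestronglyMeasurable, ← π1,
        integral_map measurable_snd.aemeasurable mF.aestronglyMeasurable]
    set l : ℝ := Real.log (Fintype.card {b // (π.map k).real {b} ≠ 0}) with hl
    have l0 : 0 ≤ l := Real.log_natCast_nonneg _
    set β : ℝ := (l + 1) / η with hβ
    have β0 : 0 < β := by positivity
    have lβ : l / β ≤ η := by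
      rw [div_le_iff₀ β0, hβ, mul_div_cancel₀ _ η0.ne']; linarith
    have wγ : ∀ x ∈ K, |η / (β * M) * (β * u x)| ≤ η := by
      intro x hx
      have e : η / (β * M) * (β * u x) = η / M * u x := by field_simp
      rw [e, abs_mul, abs_of_pos (by positivity : 0 < η / M)]
      calc η / M * |u x| ≤ η / M * M := mul_le_mul_of_nonneg_left (uM x hx) (by positivity)
        _ = η := by field_simp
    obtain ⟨ψ, ψ', hψ, hψ', hc⟩ := core hK R0 hR m0 m1 (u := fun x => β * u x) (by fun_prop)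
      (by rw [integral_const_mul, u0, mul_zero]) (ε := η / (β * M)) (by positivity)
      (fun x hx => (wγ x hx).trans (η1.trans η2)) (fun i => β • q i.1.1) (fun i => β • q i.1.2)
    obtain ⟨G0, iG0, sG0, eG0⟩ := gap hK hR β0 h0 (c := fun x => r (T0 x)) (hr.comp h0.meas)
      (q := q) (fun b => YL _ (qY b)) (η := η) (b0.mono fun x hx => hq _ hx)
      (fun i : {b // (π.map k).real {b} ≠ 0} => i.1.1) F0 m0
      (w := fun x => η / (β * M) * (β * u x)) (by fun_prop)
      (by rw [integral_const_mul, integral_const_mul, u0, mul_zero, mul_zero]) wγ (η1.trans η2) hψ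
    obtain ⟨G1, iG1, sG1, eG1⟩ := gap hK hR β0 h1 (c := fun x => r (T1 x)) (hr.comp h1.meas)
      (q := q) (fun b => YL _ (qY b)) (η := η) (b1.mono fun x hx => hq _ hx)
      (fun i : {b // (π.map k).real {b} ≠ 0} => i.1.2) F1 m0
      (w := fun _ => 0) (by fun_prop) (by simp) (γ := η) (fun x _ => by simpa using η0.le)
      (η1.trans η2) (ψ := ψ') (by simpa using hψ')
    set P0 := pot (fun i : {b // (π.map k).real {b} ≠ 0} => β • q i.1.1) ψ with hP0
    set P1 := pot (fun i : {b // (π.map k).real {b} ≠ 0} => β • q i.1.2) ψ' with hP1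
    have cP0 : Continuous P0 := continuous_pot _ _
    have cP1 : Continuous P1 := continuous_pot _ _
    have s0 := approx_sub hK hR h0 (φ' := fun x => P0 x / β) (by fun_prop) iG0 sG0
      (u := fun x => -u x) (by fun_prop) (by rw [integral_neg, u0, neg_zero])
      (M := M) (fun x hx => by rw [abs_neg]; exact uM x hx) N (by omega)
    have s1 := approx_sub hK hR h1 (φ' := fun x => P1 x / β) (by fun_prop) iG1 sG1
      hu u0 uM N (by omega)
    have w1 : ∑ i, m i * ‖β • q i.1.2 - β • q i.1.1‖ ^ 2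
        ≤ β ^ 2 * (2 * ∫ p, ‖p.1 - p.2‖ ^ 2 ∂π + 8 * η ^ 2) := by
      rw [hs (fun b => ‖β • q b.2 - β • q b.1‖ ^ 2)]
      have e : β ^ 2 * (2 * ∫ p, ‖p.1 - p.2‖ ^ 2 ∂π + 8 * η ^ 2)
          = ∫ p : E d × E d, β ^ 2 * (2 * ‖p.1 - p.2‖ ^ 2 + 8 * η ^ 2) ∂π := by
        rw [integral_const_mul, integral_add (iW.const_mul 2) (integrable_const _),
          integral_const_mul]
        simp
      rw [e]
      refine integral_mono_ae (integrable_fin_comp π km (fun b => ‖β • q b.2 - β • q b.1‖ ^ 2))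
        (((iW.const_mul 2).add (integrable_const _)).const_mul _) ?_
      filter_upwards [a0, a1] with p p1 p2
      simp only [hk]
      rw [← smul_sub, norm_smul, mul_pow, Real.norm_of_nonneg β0.le]
      refine mul_le_mul_of_nonneg_left ?_ (sq_nonneg _)
      have t1 := hq _ p1
      have t2 := hq _ p2
      have t3 : ‖q (r p.2) - q (r p.1)‖ ≤ ‖p.1 - p.2‖ + 2 * η := by
        have e2 : q (r p.2) - q (r p.1)
            = (p.1 - q (r p.1)) - (p.2 - q (r p.2)) - (p.1 - p.2) := by abel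
        rw [e2]
        linarith [norm_sub_le ((p.1 - q (r p.1)) - (p.2 - q (r p.2))) (p.1 - p.2),
          norm_sub_le (p.1 - q (r p.1)) (p.2 - q (r p.2))]
      have t4 := pow_le_pow_left₀ (norm_nonneg _) t3 2
      nlinarith [sq_nonneg (‖p.1 - p.2‖ - 2 * η)]
    have w2 : ∫ x, u x * (P0 x / β - P1 x / β) ∂(unif K) ≤ (∫ x, u x ^ 2 ∂(unif K)) / 2
        + 5000 * R ^ 2 * (2 * ∫ p, ‖p.1 - p.2‖ ^ 2 ∂π + 8 * η ^ 2) := by
      refine le_of_mul_le_mul_left ?_ (pow_pos β0 2)
      have e1 : β ^ 2 * ∫ x, u x * (P0 x / β - P1 x / β) ∂(unif K)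
          = ∫ x, β * u x * (P0 x - P1 x) ∂(unif K) := by
        rw [← integral_const_mul]
        congr 1; ext x; field_simp
      have e2 : ∫ x, (β * u x) ^ 2 ∂(unif K) = β ^ 2 * ∫ x, u x ^ 2 ∂(unif K) := by
        rw [← integral_const_mul]
        congr 1; ext x; ring
      rw [e1]
      rw [e2] at hc
      have := mul_le_mul_of_nonneg_left w1 (by positivity : 0 ≤ 5000 * R ^ 2)
      linarith
    have e3 : ∫ x, u x * (φ0 x - φ1 x) ∂(unif K) = ∫ x, -u x * (P0 x / β - φ0 x) ∂(unif K)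
        + ∫ x, u x * (P0 x / β - P1 x / β) ∂(unif K)
        + ∫ x, u x * (P1 x / β - φ1 x) ∂(unif K) := by
      rw [← hK.integral_add (by fun_prop) (by fun_prop), ← hK.integral_add (by fun_prop)
        (by fun_prop)]
      congr 1; ext x; ring
    have bd : ∀ g : ℝ, g ≤ l / β + 2 * R * η + η * (4 * L * R) →
        2 * M * (N * 2 ^ d * g + 4 * L * R / N)
          ≤ 2 * M * (2 ^ d * (1 + 2 * R + 4 * L * R) + 4 * L * R) / N := by
      intro g hg
      have g1 : g ≤ η * (1 + 2 * R + 4 * L * R) := by linarith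
      have g2 := mul_le_mul_of_nonneg_left g1 (by positivity : (0 : ℝ) ≤ N * 2 ^ d)
      have g3 : (N : ℝ) * 2 ^ d * (η * (1 + 2 * R + 4 * L * R))
          = 2 ^ d * (1 + 2 * R + 4 * L * R) / N := by
        rw [hη]; field_simp
      rw [mul_div_assoc (2 * M), add_div]
      exact mul_le_mul_of_nonneg_left (by linarith) (by positivity)
    have d0 := bd _ eG0
    have d1 := bd _ eG1
    have d2 : 40000 * R ^ 2 * η ^ 2 ≤ 40000 * R ^ 2 / N := by
      rw [div_eq_mul_one_div]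
      refine mul_le_mul_of_nonneg_left ?_ (by positivity)
      nlinarith
    have e4 : A / N = 40000 * R ^ 2 / N
        + 2 * (2 * M * (2 ^ d * (1 + 2 * R + 4 * L * R) + 4 * L * R) / N) := by
      rw [hA]; ring
    rw [e3, e4]
    linarith
  refine le_of_forall_pos_le_add fun ε ε0 => ?_
  obtain ⟨N, hN⟩ := exists_nat_gt (max 2 (A / ε))
  have N2 : (2 : ℝ) < N := lt_of_le_of_lt (le_max_left _ _) hN
  have N3 : A / ε < N := lt_of_le_of_lt (le_max_right _ _) hN
  have := key N (by exact_mod_cast N2.le)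
  have h4 : A / N ≤ ε := by
    rw [div_lt_iff₀ ε0] at N3
    rw [div_le_iff₀ (by linarith)]
    linarith
  linarith

theorem pot_stab (hK : Good K) {R L : ℝ} (R0 : 0 < R) (hR : ∀ x ∈ K, ‖x‖ ≤ R)
    {φ0 φ1 : E d → ℝ} {T0 T1 : E d → E d} (h0 : IsPot K L φ0 T0) (h1 : IsPot K L φ1 T1)
    {Y : Set (E d)} (hY : IsCompact Y) (Yn : Y.Nonempty) (YL : ∀ y ∈ Y, ‖y‖ ≤ L)
    (Y0 : ∀ᵐ y ∂((unif K).map T0), y ∈ Y) (Y1 : ∀ᵐ y ∂((unif K).map T1), y ∈ Y)
    {π : Measure (E d × E d)} (π0 : π.map Prod.fst = (unif K).map T0)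
    (π1 : π.map Prod.snd = (unif K).map T1) :
    ∃ c : ℝ, ∫ x, (φ0 x - φ1 x - c) ^ 2 ∂(unif K)
      ≤ 20000 * R ^ 2 * ∫ p, ‖p.1 - p.2‖ ^ 2 ∂π := by
  have c0 := h0.cont
  have c1 := h1.cont
  set c := ∫ x, (φ0 x - φ1 x) ∂(unif K) with hc
  have u0 : ∫ x, (φ0 x - φ1 x - c) ∂(unif K) = 0 := by
    rw [hK.integral_sub (by fun_prop) (by fun_prop), hK.integral_const, hc, sub_self]
  obtain ⟨M, hM⟩ := hK.compact.exists_bound_of_continuousOn
    (f := fun x => φ0 x - φ1 x - c) (by fun_prop)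
  have := pot_test hK (M := |M| + 1) R0 hR (by positivity) h0 h1 hY Yn YL Y0 Y1 π0 π1
    (u := fun x => φ0 x - φ1 x - c) (by fun_prop) u0
    (fun x hx => by linarith [hM x hx, le_abs_self M, Real.norm_eq_abs (φ0 x - φ1 x - c)])
  have e : ∫ x, (φ0 x - φ1 x - c) * (φ0 x - φ1 x) ∂(unif K)
      = ∫ x, (φ0 x - φ1 x - c) ^ 2 ∂(unif K) + (∫ x, (φ0 x - φ1 x - c) ∂(unif K)) * c := by
    rw [← integral_mul_const, ← hK.integral_add (by fun_prop) (by fun_prop)]
    congr 1; ext x; ring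
  rw [e, u0] at this
  exact ⟨c, by linarith⟩

end Vale.Agent.P074
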