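import Vale.Agent.P074.Basic

namespace Vale.Agent.P074

open MeasureTheory Set
open scoped RealInnerProductSpace

section Lse

variable {ι : Type*} [Fintype ι] [Nonempty ι]

noncomputable def lse (a : ι → ℝ) : ℝ := Real.log (∑ i, Real.exp (a i))

noncomputable def sm (a : ι → ℝ) (i : ι) : ℝ := Real.exp (a i - lse a)

lemma sum_exp_pos (a : ι → ℝ) : 0 < ∑ i, Real.exp (a i) :=
  Finset.sum_pos (fun _ _ => Real.exp_pos _) Finset.univ_nonempty

lemma exp_lse (a : ι → ℝ) : Real.exp (lse a) = ∑ i, Real.exp (a i) :=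
  Real.exp_log (sum_exp_pos a)

omit [Nonempty ι] in
lemma sm_pos (a : ι → ℝ) (i : ι) : 0 < sm a i := Real.exp_pos _

lemma sum_sm_exp (a b : ι → ℝ) :
    ∑ i, sm a i * Real.exp (b i - a i) = Real.exp (lse b - lse a) := by
  rw [Real.exp_sub (lse b), exp_lse b, Finset.sum_div]
  refine Finset.sum_congr rfl fun i _ => ?_
  rw [sm, ← Real.exp_add, ← Real.exp_sub]
  congr 1; ring

lemma sum_sm (a : ι → ℝ) : ∑ i, sm a i = 1 := by
  simpa using sum_sm_exp a a

lemma le_lse (a : ι → ℝ) (i : ι) : a i ≤ lse a := by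
  rw [← Real.exp_le_exp, exp_lse]
  exact Finset.single_le_sum (f := fun i => Real.exp (a i)) (fun _ _ => (Real.exp_pos _).le)
    (Finset.mem_univ i)

lemma gibbs (a b : ι → ℝ) : lse a + ∑ i, sm a i * (b i - a i) ≤ lse b := by
  set c := ∑ i, sm a i * (b i - a i) with hc
  have h1 : (1 : ℝ) ≤ Real.exp (lse b - lse a - c) := by
    rw [Real.exp_sub (lse b - lse a), ← sum_sm_exp, Finset.sum_div]
    calc (1 : ℝ) = ∑ i, sm a i * (b i - a i - c + 1) := by
          simp only [mul_add, mul_sub (sm a _) (b _ - a _) c, Finset.sum_add_distrib,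
            Finset.sum_sub_distrib, ← Finset.sum_mul, sum_sm, mul_one, one_mul]
          rw [← hc]; ring
      _ ≤ _ := by
          refine Finset.sum_le_sum fun i _ => ?_
          rw [mul_div_assoc, ← Real.exp_sub]
          exact mul_le_mul_of_nonneg_left (Real.add_one_le_exp _) (sm_pos a i).le
  have := Real.one_le_exp_iff.1 h1
  linarith

lemma lse_le_add_exp (a b : ι → ℝ) :
    lse b ≤ lse a + ∑ i, sm a i * (Real.exp (b i - a i) - 1) := by
  simp only [mul_sub, Finset.sum_sub_distrib, sum_sm_exp, mul_one, sum_sm]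
  linarith [Real.add_one_le_exp (lse b - lse a)]

lemma lse_le_add (a b : ι → ℝ) (c : ℝ) (h : ∀ i, b i ≤ a i + c) : lse b ≤ lse a + c := by
  have h1 := gibbs b a
  have h2 : ∑ i, sm b i * (-c) ≤ ∑ i, sm b i * (a i - b i) :=
    Finset.sum_le_sum fun i _ => mul_le_mul_of_nonneg_left (by linarith [h i]) (sm_pos b i).le
  rw [← Finset.sum_mul, sum_sm] at h2
  linarith

lemma lse_le (a : ι → ℝ) (c : ℝ) (h : ∀ i, a i ≤ c) :
    lse a ≤ Real.log (Fintype.card ι) + c := by
  have := lse_le_add (fun _ : ι => (0 : ℝ)) a c (by simpa using h)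
  simpa [lse] using this

lemma sm_mid (a b c : ι → ℝ) (h : ∀ i, c i = (a i + b i) / 2) (i : ι) :
    sm a i * sm b i ≤ sm c i ^ 2 := by
  have h1 := gibbs c a
  have h2 := gibbs c b
  have h3 : ∑ i, sm c i * (a i - c i) + ∑ i, sm c i * (b i - c i) = 0 := by
    rw [← Finset.sum_add_distrib]
    exact Finset.sum_eq_zero fun i _ => by rw [h i]; ring
  unfold sm
  rw [sq, ← Real.exp_add, ← Real.exp_add, Real.exp_le_exp, h i]
  linarith

lemma continuous_lse : Continuous (lse : (ι → ℝ) → ℝ) := by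
  unfold lse
  exact Continuous.log (by fun_prop) fun a => (sum_exp_pos a).ne'

lemma continuous_sm (i : ι) : Continuous (fun a : ι → ℝ => sm a i) := by
  unfold sm
  have := continuous_lse (ι := ι)
  fun_prop

end Lse

variable {d : ℕ} {K : Set (E d)} {ι : Type*} [Fintype ι] [Nonempty ι]

/-- the family of affine functions -/
noncomputable def aff (y : ι → E d) (ψ : ι → ℝ) (x : E d) : ι → ℝ := fun i => ⟪x, y i⟫ - ψ i

noncomputable def pot (y : ι → E d) (ψ : ι → ℝ) (x : E d) : ℝ := lse (aff y ψ x)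

noncomputable def wt (y : ι → E d) (ψ : ι → ℝ) (i : ι) (x : E d) : ℝ := sm (aff y ψ x) i

omit [Fintype ι] [Nonempty ι] in
lemma continuous_aff (y : ι → E d) (ψ : ι → ℝ) : Continuous (aff y ψ) := by
  unfold aff
  fun_prop

@[fun_prop]
lemma continuous_pot (y : ι → E d) (ψ : ι → ℝ) : Continuous (pot y ψ) :=
  continuous_lse.comp (continuous_aff y ψ)

@[fun_prop]
lemma continuous_wt (y : ι → E d) (ψ : ι → ℝ) (i : ι) : Continuous (wt y ψ i) :=
  (continuous_sm i).comp (continuous_aff y ψ)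

omit [Nonempty ι] in
lemma wt_pos (y : ι → E d) (ψ : ι → ℝ) (i : ι) (x : E d) : 0 < wt y ψ i x := sm_pos _ _

lemma sum_wt (y : ι → E d) (ψ : ι → ℝ) (x : E d) : ∑ i, wt y ψ i x = 1 := sum_sm _

def Opt (K : Set (E d)) (m : ι → ℝ) (θ : E d → ℝ) (y : ι → E d) (ψ : ι → ℝ) : Prop :=
  ∀ i, ∫ x, θ x * wt y ψ i x ∂(unif K) = m i

noncomputable def Val (K : Set (E d)) (m : ι → ℝ) (θ : E d → ℝ) (y : ι → E d) (ψ : ι → ℝ) : ℝ :=
  ∫ x, θ x * pot y ψ x ∂(unif K) + ∑ i, m i * ψ i

lemma variational (hK : Good K) {m : ι → ℝ} {θ : E d → ℝ} (hθ : Continuous θ)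
    (θ0 : ∀ x ∈ K, 0 ≤ θ x) {y : ι → E d} {ψ : ι → ℝ} (h : Opt K m θ y ψ)
    (y' : ι → E d) (ψ' : ι → ℝ) :
    Val K m θ y ψ + ∑ i, ∫ x, θ x * wt y ψ i x * ⟪x, y' i - y i⟫ ∂(unif K)
      ≤ Val K m θ y' ψ' := by
  have h1 : ∫ x, (θ x * pot y ψ x + ∑ i, (θ x * wt y ψ i x * ⟪x, y' i - y i⟫
      + θ x * wt y ψ i x * (ψ i - ψ' i))) ∂(unif K) ≤ ∫ x, θ x * pot y' ψ' x ∂(unif K) := by
    refine hK.integral_mono (by fun_prop) (by fun_prop) fun x hx => ?_
    have := mul_le_mul_of_nonneg_left (gibbs (aff y ψ x) (aff y' ψ' x)) (θ0 x hx)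
    refine le_trans (le_of_eq ?_) this
    rw [mul_add, Finset.mul_sum]
    congr 1
    refine Finset.sum_congr rfl fun i _ => ?_
    simp only [aff, wt, inner_sub_right]
    ring
  rw [hK.integral_add (by fun_prop) (by fun_prop), hK.integral_sum (fun i => by fun_prop)] at h1
  have h2 : ∀ i, ∫ x, (θ x * wt y ψ i x * ⟪x, y' i - y i⟫
      + θ x * wt y ψ i x * (ψ i - ψ' i)) ∂(unif K)
      = ∫ x, θ x * wt y ψ i x * ⟪x, y' i - y i⟫ ∂(unif K) + (m i * ψ i - m i * ψ' i) := by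
    intro i
    rw [hK.integral_add (by fun_prop) (by fun_prop), integral_mul_const, h i]
    ring
  simp only [h2, Finset.sum_add_distrib, Finset.sum_sub_distrib] at h1
  unfold Val
  linarith

lemma Opt.le (hK : Good K) {m : ι → ℝ} {θ : E d → ℝ} (hθ : Continuous θ)
    (θ0 : ∀ x ∈ K, 0 ≤ θ x) {y : ι → E d} {ψ : ι → ℝ} (h : Opt K m θ y ψ) (ψ' : ι → ℝ) :
    Val K m θ y ψ ≤ Val K m θ y ψ' := by
  simpa using variational hK hθ θ0 h y ψ'

lemma val_le_add (hK : Good K) {m : ι → ℝ} {θ : E d → ℝ} (hθ : Continuous θ)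
    (θ0 : ∀ x ∈ K, 0 ≤ θ x) (θ1 : ∫ x, θ x ∂(unif K) = 1) (y : ι → E d) (ψ ψ' : ι → ℝ) (c : ℝ)
    (h : ∀ i, ψ i ≤ ψ' i + c) :
    Val K m θ y ψ' ≤ Val K m θ y ψ + c + ∑ i, m i * (ψ' i - ψ i) := by
  have h1 : ∫ x, θ x * pot y ψ' x ∂(unif K) ≤ ∫ x, (θ x * pot y ψ x + θ x * c) ∂(unif K) := by
    refine hK.integral_mono (by fun_prop) (by fun_prop) fun x hx => ?_
    rw [← mul_add]
    refine mul_le_mul_of_nonneg_left (lse_le_add _ _ _ fun i => ?_) (θ0 x hx)
    simp only [aff]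
    linarith [h i]
  rw [hK.integral_add (by fun_prop) (by fun_prop), integral_mul_const, θ1] at h1
  unfold Val
  simp only [mul_sub, Finset.sum_sub_distrib]
  linarith

lemma exists_opt (hK : Good K) {m : ι → ℝ} (m0 : ∀ i, 0 < m i) (m1 : ∑ i, m i = 1)
    {θ : E d → ℝ} (hθ : Continuous θ)
    (θ0 : ∀ x ∈ K, 0 ≤ θ x) (θ1 : ∫ x, θ x ∂(unif K) = 1) (y : ι → E d) :
    ∃ ψ, Opt K m θ y ψ := by
  classical
  have hcont : Continuous (Val K m θ y) := by
    refine (LipschitzWith.of_le_add_mul 2 fun ψ' ψ => ?_).continuous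
    have h1 := val_le_add (m := m) hK hθ θ0 θ1 y ψ ψ' (dist ψ' ψ) (fun i => by
      have := dist_le_pi_dist ψ' ψ i
      rw [Real.dist_eq] at this
      linarith [neg_abs_le (ψ' i - ψ i)])
    have h2 : ∑ i, m i * (ψ' i - ψ i) ≤ ∑ i, m i * dist ψ' ψ := by
      refine Finset.sum_le_sum fun i _ => mul_le_mul_of_nonneg_left ?_ (m0 i).le
      have := dist_le_pi_dist ψ' ψ i
      rw [Real.dist_eq] at this
      linarith [le_abs_self (ψ' i - ψ i)]
    rw [← Finset.sum_mul, m1] at h2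
    push_cast
    linarith
  set A : ι → ℝ := fun i => ∫ x, θ x * ⟪x, y i⟫ ∂(unif K) with hA
  set D : ℝ := ∑ j, ∑ i, |Val K m θ y 0 - A i| / m j with hD
  have D0 : 0 ≤ D := Finset.sum_nonneg fun j _ => Finset.sum_nonneg fun i _ =>
    div_nonneg (abs_nonneg _) (m0 j).le
  obtain ⟨ψ, -, hψ⟩ := (isCompact_closedBall (0 : ι → ℝ) D).exists_isMinOn
    ⟨0, Metric.mem_closedBall_self D0⟩ hcont.continuousOn
  have hmin : ∀ ψ', Val K m θ y ψ ≤ Val K m θ y ψ' := by
    intro ψ'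
    by_cases hc : Val K m θ y 0 ≤ Val K m θ y ψ'
    · exact le_trans (hψ (Metric.mem_closedBall_self D0)) hc
    push Not at hc
    obtain ⟨i0, hi0⟩ := Finite.exists_min ψ'
    set χ : ι → ℝ := fun i => ψ' i - ψ' i0 with hχ
    have h1 := val_le_add (m := m) hK hθ θ0 θ1 y ψ' χ (ψ' i0) (fun i => by simp [hχ])
    have h2 : ∑ i, m i * (χ i - ψ' i) = -ψ' i0 := by
      simp only [hχ, sub_sub_cancel_left, ← Finset.sum_mul, m1, one_mul]
    have h3 : Val K m θ y χ ≤ Val K m θ y ψ' := by linarith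
    refine le_trans (hψ ?_) h3
    have h4 : A i0 ≤ ∫ x, θ x * pot y χ x ∂(unif K) := by
      refine hK.integral_mono (by fun_prop) (by fun_prop) fun x hx => ?_
      refine mul_le_mul_of_nonneg_left ?_ (θ0 x hx)
      have := le_lse (aff y χ x) i0
      refine le_trans (le_of_eq ?_) this
      simp [aff, hχ]
    have χ0 : ∀ i, 0 ≤ χ i := fun i => sub_nonneg.2 (hi0 i)
    rw [mem_closedBall_zero_iff, pi_norm_le_iff_of_nonneg D0]
    intro j
    rw [Real.norm_eq_abs, abs_of_nonneg (χ0 j)]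
    have h5 : m j * χ j ≤ ∑ i, m i * χ i :=
      Finset.single_le_sum (f := fun i => m i * χ i) (fun i _ => mul_nonneg (m0 i).le (χ0 i))
        (Finset.mem_univ j)
    have h6 : m j * χ j ≤ |Val K m θ y 0 - A i0| := by
      have := le_abs_self (Val K m θ y 0 - A i0)
      unfold Val at h3
      unfold Val at hc
      unfold Val at this ⊢
      linarith
    have h7 : χ j ≤ |Val K m θ y 0 - A i0| / m j := by
      rw [le_div_iff₀ (m0 j)]; linarith
    refine le_trans h7 (le_trans ?_ (Finset.single_le_sum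
      (f := fun j => ∑ i, |Val K m θ y 0 - A i| / m j)
      (fun j _ => Finset.sum_nonneg fun i _ => div_nonneg (abs_nonneg _) (m0 j).le)
      (Finset.mem_univ j)))
    exact Finset.single_le_sum (f := fun i => |Val K m θ y 0 - A i| / m j)
      (fun i _ => div_nonneg (abs_nonneg _) (m0 j).le) (Finset.mem_univ i0)
  refine ⟨ψ, fun i => ?_⟩
  set P := ∫ x, θ x * wt y ψ i x ∂(unif K) with hP
  have key : ∀ s : ℝ, 0 ≤ P * (Real.exp (-s) - 1) + m i * s := by
    intro s
    have h1 := hmin (fun j => ψ j + if j = i then s else 0)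
    have h2 : ∫ x, θ x * pot y (fun j => ψ j + if j = i then s else 0) x ∂(unif K)
        ≤ ∫ x, (θ x * pot y ψ x + θ x * wt y ψ i x * (Real.exp (-s) - 1)) ∂(unif K) := by
      refine hK.integral_mono (by fun_prop) (by fun_prop) fun x hx => ?_
      rw [mul_assoc, ← mul_add]
      refine mul_le_mul_of_nonneg_left ?_ (θ0 x hx)
      refine le_trans (lse_le_add_exp (aff y ψ x) _) (le_of_eq ?_)
      congr 1
      rw [Finset.sum_eq_single i]
      · simp [aff, wt]
      · intro j _ hj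
        simp [aff, hj]
      · simp
    rw [hK.integral_add (by fun_prop) (by fun_prop), integral_mul_const] at h2
    unfold Val at h1
    simp only [mul_add, Finset.sum_add_distrib, mul_ite, mul_zero, Finset.sum_ite_eq',
      Finset.mem_univ, if_true] at h1
    linarith
  have P0 : 0 ≤ P := hK.integral_nonneg fun x hx => mul_nonneg (θ0 x hx) (wt_pos _ _ _ _).le
  rcases P0.eq_or_lt with P0 | P0
  · have := key (-1)
    rw [← P0] at this
    linarith [m0 i]
  by_contra hne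
  have hq : 0 < P / m i := div_pos P0 (m0 i)
  have h1 := key (Real.log (P / m i))
  rw [Real.exp_neg, Real.exp_log hq] at h1
  have h2 := Real.log_lt_sub_one_of_pos hq (by
    intro h
    exact hne ((div_eq_one_iff_eq (m0 i).ne').1 h))
  have h3 := mul_lt_mul_of_pos_left h2 (m0 i)
  have h4 : P * ((P / m i)⁻¹ - 1) = m i - P := by field_simp
  have h5 : m i * (P / m i - 1) = P - m i := by
    have := (m0 i).ne'
    field_simp
  linarith

end Vale.Agent.P074
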