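import Vale.Agent.P074.Soft

namespace Vale.Agent.P074

open MeasureTheory Set
open scoped RealInnerProductSpace

variable {d : ℕ} {K : Set (E d)} {ι : Type*} [Fintype ι] [Nonempty ι]

noncomputable def gw (R : ℝ) (x : E d) : ℝ := Real.exp (-(‖x‖ ^ 2 / (32 * R ^ 2)))

noncomputable def fw (R : ℝ) (x : E d) : ℝ := Real.exp (‖x‖ ^ 2 / (32 * R ^ 2))

@[fun_prop]
lemma continuous_gw (R : ℝ) : Continuous (gw R : E d → ℝ) := by unfold gw; fun_prop

@[fun_prop]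
lemma continuous_fw (R : ℝ) : Continuous (fw R : E d → ℝ) := by unfold fw; fun_prop

lemma gw_mul_fw (R : ℝ) (x : E d) : gw R x * fw R x = 1 := by
  unfold gw fw; rw [← Real.exp_add]; simp

lemma gw_pos (R : ℝ) (x : E d) : 0 < gw R x := Real.exp_pos _

lemma fw_pos (R : ℝ) (x : E d) : 0 < fw R x := Real.exp_pos _

lemma gw_le_one (R : ℝ) (x : E d) : gw R x ≤ 1 := by
  unfold gw
  rw [Real.exp_le_one_iff, neg_nonpos]
  positivity

lemma le_gw {R : ℝ} (R0 : 0 < R) {x : E d} (hx : ‖x‖ ≤ R) : 10 / 11 ≤ gw R x := by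
  unfold gw
  have h1 : ‖x‖ ^ 2 / (32 * R ^ 2) ≤ 1 / 32 := by
    rw [div_le_div_iff₀ (by positivity) (by norm_num)]
    nlinarith [norm_nonneg x]
  linarith [Real.add_one_le_exp (-(‖x‖ ^ 2 / (32 * R ^ 2)))]

lemma fw_le {R : ℝ} (R0 : 0 < R) {x : E d} (hx : ‖x‖ ≤ R) : fw R x ≤ 11 / 10 := by
  have h1 := gw_mul_fw R x
  have h2 := le_gw R0 hx
  have h3 := fw_pos R x
  nlinarith

lemma fw_sub_le {R : ℝ} (R0 : 0 < R) {x x' : E d} (hx : ‖x‖ ≤ R) (hx' : ‖x'‖ ≤ R) :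
    fw R x - fw R x' ≤ 11 / (160 * R) * ‖x - x'‖ := by
  have h1 : fw R x' = fw R x * Real.exp (‖x'‖ ^ 2 / (32 * R ^ 2) - ‖x‖ ^ 2 / (32 * R ^ 2)) := by
    unfold fw; rw [← Real.exp_add]; congr 1; ring
  have h2 := Real.add_one_le_exp (‖x'‖ ^ 2 / (32 * R ^ 2) - ‖x‖ ^ 2 / (32 * R ^ 2))
  have h3 : ‖x‖ ^ 2 / (32 * R ^ 2) - ‖x'‖ ^ 2 / (32 * R ^ 2) ≤ ‖x - x'‖ / (16 * R) := by
    rw [← sub_div, div_le_div_iff₀ (by positivity) (by positivity)]
    have a1 := norm_sub_norm_le x x'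
    have a2 : ‖x‖ ^ 2 - ‖x'‖ ^ 2 ≤ ‖x - x'‖ * (2 * R) := by
      have a3 : ‖x‖ ^ 2 - ‖x'‖ ^ 2 = (‖x‖ - ‖x'‖) * (‖x‖ + ‖x'‖) := by ring
      rw [a3]
      calc (‖x‖ - ‖x'‖) * (‖x‖ + ‖x'‖) ≤ ‖x - x'‖ * (‖x‖ + ‖x'‖) :=
            mul_le_mul_of_nonneg_right a1 (by positivity)
        _ ≤ ‖x - x'‖ * (2 * R) := mul_le_mul_of_nonneg_left (by linarith) (norm_nonneg _)
    nlinarith
  have h4 := fw_pos R x
  have h5 := fw_le R0 hx
  have h6 : 0 ≤ ‖x - x'‖ / (16 * R) := by positivity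
  have h7 : fw R x - fw R x' ≤ fw R x * (‖x - x'‖ / (16 * R)) := by
    rw [h1]; nlinarith
  calc fw R x - fw R x' ≤ fw R x * (‖x - x'‖ / (16 * R)) := h7
    _ ≤ 11 / 10 * (‖x - x'‖ / (16 * R)) := mul_le_mul_of_nonneg_right h5 h6
    _ = 11 / (160 * R) * ‖x - x'‖ := by field_simp; ring

lemma abs_fw_sub_le {R : ℝ} (R0 : 0 < R) {x x' : E d} (hx : ‖x‖ ≤ R) (hx' : ‖x'‖ ≤ R) :
    |fw R x - fw R x'| ≤ 11 / (160 * R) * ‖x - x'‖ := by
  rw [abs_sub_le_iff]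
  refine ⟨fw_sub_le R0 hx hx', ?_⟩
  rw [norm_sub_rev]
  exact fw_sub_le R0 hx' hx

lemma gw_mid {R : ℝ} (R0 : 0 < R) (x x' : E d) (t Λ : ℝ) (h : t ≤ Λ * ‖x - x'‖) :
    gw R x * gw R x' * Real.exp t
      ≤ gw R ((1 / 2 : ℝ) • (x + x')) ^ 2 * Real.exp (16 * R ^ 2 * Λ ^ 2) := by
  unfold gw
  rw [sq (Real.exp _), ← Real.exp_add, ← Real.exp_add, ← Real.exp_add, ← Real.exp_add,
    Real.exp_le_exp]
  have h1 : ‖(1 / 2 : ℝ) • (x + x')‖ ^ 2 = (‖x‖ ^ 2 + ‖x'‖ ^ 2) / 2 - ‖x - x'‖ ^ 2 / 4 := by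
    rw [norm_smul, mul_pow]
    have := parallelogram_law_with_norm ℝ x x'
    rw [Real.norm_eq_abs, sq_abs]
    nlinarith
  rw [h1]
  have h2 : Λ * ‖x - x'‖ ≤ ‖x - x'‖ ^ 2 / (64 * R ^ 2) + 16 * R ^ 2 * Λ ^ 2 := by
    have : ‖x - x'‖ ^ 2 / (64 * R ^ 2) + 16 * R ^ 2 * Λ ^ 2 - Λ * ‖x - x'‖
        = (‖x - x'‖ / (8 * R) - 4 * R * Λ) ^ 2 := by
      field_simp; ring
    nlinarith [sq_nonneg (‖x - x'‖ / (8 * R) - 4 * R * Λ)]
  have h3 : -(((‖x‖ ^ 2 + ‖x'‖ ^ 2) / 2 - ‖x - x'‖ ^ 2 / 4) / (32 * R ^ 2))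
      + -(((‖x‖ ^ 2 + ‖x'‖ ^ 2) / 2 - ‖x - x'‖ ^ 2 / 4) / (32 * R ^ 2))
      = -(‖x‖ ^ 2 / (32 * R ^ 2)) + -(‖x'‖ ^ 2 / (32 * R ^ 2)) + ‖x - x'‖ ^ 2 / (64 * R ^ 2) := by
    field_simp; ring
  rw [h3]
  linarith

noncomputable def mass (K : Set (E d)) (R : ℝ) (y : ι → E d) (ψ : ι → ℝ) (i : ι) : ℝ :=
  ∫ x, wt y ψ i x * gw R x ∂(unif K)

lemma sum_mass (hK : Good K) (R : ℝ) (y : ι → E d) (ψ : ι → ℝ) :
    ∑ i, mass K R y ψ i = ∫ x, gw R x ∂(unif K) := by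
  unfold mass
  rw [← hK.integral_sum (fun i => by fun_prop)]
  simp only [← Finset.sum_mul, sum_wt, one_mul]

lemma star_one (hK : Good K) {R : ℝ} (R0 : 0 < R) (y : ι → E d) (ψ ψ' : ι → ℝ) (i : ι)
    (hM : 0 < mass K R y ψ i) (hM' : 0 < mass K R y ψ' i)
    {Θ : E d → ℝ} (hΘ : Continuous Θ) (Λ : ℝ)
    (hL : ∀ x ∈ K, ∀ x' ∈ K, Θ x - Θ x' ≤ Λ * ‖x - x'‖) :
    √(mass K R y ψ i) * √(mass K R y ψ' i) *
      (1 + ((∫ x, wt y ψ i x * gw R x * Θ x ∂(unif K)) / mass K R y ψ i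
        - (∫ x, wt y ψ' i x * gw R x * Θ x ∂(unif K)) / mass K R y ψ' i) / 2
        - 8 * R ^ 2 * Λ ^ 2)
      ≤ mass K R y (fun j => (ψ j + ψ' j) / 2) i := by
  set M := mass K R y ψ i with hMd
  set M' := mass K R y ψ' i with hM'd
  set M'' := mass K R y (fun j => (ψ j + ψ' j) / 2) i with hM''d
  set a := (∫ x, wt y ψ i x * gw R x * Θ x ∂(unif K)) / M with ha
  set a' := (∫ x, wt y ψ' i x * gw R x * Θ x ∂(unif K)) / M' with ha'
  set w := 8 * R ^ 2 * Λ ^ 2 - (a - a') / 2 with hw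
  have key := hK.pl (f := fun x => wt y ψ i x * gw R x * Real.exp (Θ x - a))
    (g := fun x => wt y ψ' i x * gw R x * Real.exp (a' - Θ x))
    (h := fun x => wt y (fun j => (ψ j + ψ' j) / 2) i x * gw R x * Real.exp w)
    (by fun_prop) (by fun_prop) (by fun_prop)
    (fun x => by have := wt_pos y ψ i x; have := gw_pos R x; positivity)
    (fun x => by have := wt_pos y ψ' i x; have := gw_pos R x; positivity)
    (fun x => by
      have := wt_pos y (fun j => (ψ j + ψ' j) / 2) i x; have := gw_pos R x; positivity)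
    (fun x hx x' hx' => by
      have h1 : wt y ψ i x * wt y ψ' i x'
          ≤ wt y (fun j => (ψ j + ψ' j) / 2) i ((1 / 2 : ℝ) • (x + x')) ^ 2 := by
        refine sm_mid _ _ _ (fun j => ?_) i
        simp only [aff, inner_smul_left, inner_add_left]
        simp; ring
      have h2 := gw_mid R0 x x' _ Λ (hL x hx x' hx')
      have h3 := mul_le_mul h1 h2
        (by have := gw_pos R x; have := gw_pos R x'; positivity) (sq_nonneg _)
      have h4 := mul_le_mul_of_nonneg_right h3 (Real.exp_pos (a' - a)).le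
      have e1 : Real.exp (Θ x - a) * Real.exp (a' - Θ x')
          = Real.exp (Θ x - Θ x') * Real.exp (a' - a) := by
        rw [← Real.exp_add, ← Real.exp_add]; congr 1; ring
      have e2 : Real.exp w ^ 2 = Real.exp (16 * R ^ 2 * Λ ^ 2) * Real.exp (a' - a) := by
        rw [sq, ← Real.exp_add, ← Real.exp_add]; congr 1; rw [hw]; ring
      calc wt y ψ i x * gw R x * Real.exp (Θ x - a)
            * (wt y ψ' i x' * gw R x' * Real.exp (a' - Θ x'))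
          = wt y ψ i x * wt y ψ' i x' * (gw R x * gw R x')
            * (Real.exp (Θ x - a) * Real.exp (a' - Θ x')) := by ring
        _ = wt y ψ i x * wt y ψ' i x' * (gw R x * gw R x' * Real.exp (Θ x - Θ x'))
            * Real.exp (a' - a) := by rw [e1]; ring
        _ ≤ _ := h4
        _ = _ := by rw [mul_pow, mul_pow, e2]; ring)
  have j1 : M ≤ ∫ x, wt y ψ i x * gw R x * Real.exp (Θ x - a) ∂(unif K) := by
    have : ∫ x, (wt y ψ i x * gw R x * Θ x + wt y ψ i x * gw R x * (1 - a)) ∂(unif K)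
        ≤ ∫ x, wt y ψ i x * gw R x * Real.exp (Θ x - a) ∂(unif K) := by
      refine hK.integral_mono (by fun_prop) (by fun_prop) fun x _ => ?_
      rw [← mul_add]
      refine mul_le_mul_of_nonneg_left ?_ (mul_pos (wt_pos _ _ _ _) (gw_pos _ _)).le
      linarith [Real.add_one_le_exp (Θ x - a)]
    rw [hK.integral_add (by fun_prop) (by fun_prop), integral_mul_const] at this
    have e : ∫ x, wt y ψ i x * gw R x * Θ x ∂(unif K) = a * M := by
      rw [ha, div_mul_cancel₀ _ hM.ne']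
    rw [e] at this
    change a * M + M * (1 - a) ≤ _ at this
    linarith
  have j2 : M' ≤ ∫ x, wt y ψ' i x * gw R x * Real.exp (a' - Θ x) ∂(unif K) := by
    have : ∫ x, (wt y ψ' i x * gw R x * (1 + a') - wt y ψ' i x * gw R x * Θ x) ∂(unif K)
        ≤ ∫ x, wt y ψ' i x * gw R x * Real.exp (a' - Θ x) ∂(unif K) := by
      refine hK.integral_mono (by fun_prop) (by fun_prop) fun x _ => ?_
      rw [← mul_sub]
      refine mul_le_mul_of_nonneg_left ?_ (mul_pos (wt_pos _ _ _ _) (gw_pos _ _)).le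
      linarith [Real.add_one_le_exp (a' - Θ x)]
    rw [hK.integral_sub (by fun_prop) (by fun_prop), integral_mul_const] at this
    have e : ∫ x, wt y ψ' i x * gw R x * Θ x ∂(unif K) = a' * M' := by
      rw [ha', div_mul_cancel₀ _ hM'.ne']
    rw [e] at this
    change M' * (1 + a') - a' * M' ≤ _ at this
    linarith
  rw [integral_mul_const] at key
  change _ ≤ (M'' * Real.exp w) ^ 2 at key
  have M0 : 0 ≤ M'' := hK.integral_nonneg fun x _ => (mul_pos (wt_pos _ _ _ _) (gw_pos _ _)).le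
  have k2 : M * M' ≤ (M'' * Real.exp w) ^ 2 :=
    le_trans (mul_le_mul j1 j2 hM'.le (le_trans hM.le j1)) key
  have k3 : √M * √M' ≤ M'' * Real.exp w := by
    rw [← Real.sqrt_mul hM.le]
    exact Real.sqrt_le_iff.2 ⟨by positivity, k2⟩
  have k4 : √M * √M' * Real.exp (-w) ≤ M'' := by
    have := mul_le_mul_of_nonneg_right k3 (Real.exp_pos (-w)).le
    rwa [mul_assoc M'', ← Real.exp_add, add_neg_cancel, Real.exp_zero, mul_one] at this
  refine le_trans ?_ k4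
  refine mul_le_mul_of_nonneg_left ?_ (by positivity)
  linarith [Real.add_one_le_exp (-w)]

lemma star (hK : Good K) {R : ℝ} (R0 : 0 < R) (y : ι → E d) (ψ ψ' : ι → ℝ)
    (hM : ∀ i, 0 < mass K R y ψ i) (hM' : ∀ i, 0 < mass K R y ψ' i)
    {Θ : ι → E d → ℝ} (hΘ : ∀ i, Continuous (Θ i)) (Λ : ι → ℝ)
    (hL : ∀ i, ∀ x ∈ K, ∀ x' ∈ K, Θ i x - Θ i x' ≤ Λ i * ‖x - x'‖) :
    ∑ i, √(mass K R y ψ i) * √(mass K R y ψ' i) *
      (((∫ x, wt y ψ i x * gw R x * Θ i x ∂(unif K)) / mass K R y ψ i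
        - (∫ x, wt y ψ' i x * gw R x * Θ i x ∂(unif K)) / mass K R y ψ' i) / 2
        - 8 * R ^ 2 * Λ i ^ 2)
      ≤ ∑ i, (√(mass K R y ψ i) - √(mass K R y ψ' i)) ^ 2 / 2 := by
  have h1 := Finset.sum_le_sum fun i (_ : i ∈ Finset.univ) =>
    star_one hK R0 y ψ ψ' i (hM i) (hM' i) (hΘ i) (Λ i) (hL i)
  rw [sum_mass hK] at h1
  have h2 : ∀ i, (√(mass K R y ψ i) - √(mass K R y ψ' i)) ^ 2 / 2
      = mass K R y ψ i / 2 + mass K R y ψ' i / 2
        - √(mass K R y ψ i) * √(mass K R y ψ' i) := by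
    intro i
    have a1 := Real.sq_sqrt (hM i).le
    have a2 := Real.sq_sqrt (hM' i).le
    nlinarith
  simp only [h2, Finset.sum_sub_distrib, Finset.sum_add_distrib, ← Finset.sum_div, sum_mass hK]
  simp only [add_sub_assoc, mul_add, mul_one, Finset.sum_add_distrib] at h1
  linarith

lemma le_of_sq_le_sq_pos {a b : ℝ} (hb : 0 ≤ b) (h : a ^ 2 ≤ b ^ 2) : a ≤ b :=
  le_trans (le_abs_self a) (abs_le_of_sq_le_sq h hb)

lemma idx_H {m m' α α' : ℝ} (m0 : 0 < m) (α0 : 0 < α) (α0' : 0 < α') (h1 : α ^ 2 ≤ m)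
    (h2 : 10 / 11 * m ≤ α ^ 2) (h3 : α' ^ 2 ≤ 2 * m) (h4 : 3 / 5 * m ≤ α' ^ 2) :
    (α - α') ^ 2 / 2 ≤ α * α' / 2 * (m / α ^ 2 - m' / α' ^ 2) ^ 2 + (m - m') ^ 2 / (2 * m) := by
  set Δ := m / α ^ 2 - m' / α' ^ 2 with hΔ
  set s := α * α' with hs
  have s0 : 0 < s := mul_pos α0 α0'
  have e1 : m * (α' ^ 2 - α ^ 2) = s ^ 2 * Δ - α ^ 2 * (m - m') := by
    rw [hΔ, hs]; field_simp; ring
  have s1 : s ^ 2 ≤ 2 * m ^ 2 := by rw [hs, mul_pow]; nlinarith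
  have s2 : m ≤ 2 * s := by
    have : m ^ 2 ≤ (2 * s) ^ 2 := by rw [hs, mul_pow, mul_pow]; nlinarith
    exact le_of_sq_le_sq_pos (by positivity) this
  have e2 : 4 * s * (α - α') ^ 2 ≤ (α' ^ 2 - α ^ 2) ^ 2 := by
    have : (α' ^ 2 - α ^ 2) ^ 2 = (α + α') ^ 2 * (α - α') ^ 2 := by ring
    rw [this]
    refine mul_le_mul_of_nonneg_right ?_ (sq_nonneg _)
    rw [hs]; nlinarith [sq_nonneg (α - α')]
  have e3 : (m * (α' ^ 2 - α ^ 2)) ^ 2 ≤ 2 * (s ^ 2 * Δ) ^ 2 + 2 * (α ^ 2 * (m - m')) ^ 2 := by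
    rw [e1]; nlinarith [sq_nonneg (s ^ 2 * Δ + α ^ 2 * (m - m'))]
  have e4 : (s ^ 2 * Δ) ^ 2 ≤ 2 * m ^ 2 * (s ^ 2 * Δ ^ 2) := by
    have : (s ^ 2 * Δ) ^ 2 = s ^ 2 * (s ^ 2 * Δ ^ 2) := by ring
    rw [this]
    exact mul_le_mul_of_nonneg_right s1 (by positivity)
  have e5 : (α ^ 2 * (m - m')) ^ 2 ≤ m ^ 2 * (m - m') ^ 2 := by
    rw [mul_pow]
    exact mul_le_mul_of_nonneg_right (pow_le_pow_left₀ (sq_nonneg _) h1 2) (sq_nonneg _)
  have e6 : m ^ 2 * (4 * s * (α - α') ^ 2) ≤ m ^ 2 * (4 * (s ^ 2 * Δ ^ 2) + 2 * (m - m') ^ 2) := by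
    have := mul_le_mul_of_nonneg_left e2 (sq_nonneg m)
    rw [mul_pow] at e3
    nlinarith
  have e7 := le_of_mul_le_mul_left e6 (by positivity)
  have e8 : (m - m') ^ 2 ≤ 4 * s * ((m - m') ^ 2 / (2 * m)) := by
    rw [mul_div_assoc', le_div_iff₀ (by positivity)]
    nlinarith [sq_nonneg (m - m')]
  have e9 : 4 * s * ((α - α') ^ 2 / 2)
      ≤ 4 * s * (s / 2 * Δ ^ 2 + (m - m') ^ 2 / (2 * m)) := by nlinarith
  exact le_of_mul_le_mul_left e9 (by positivity)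

lemma idx_T {m α α' f f' ε r : ℝ} (m0 : 0 < m) (ε0 : 0 < ε) (h1 : α ^ 2 ≤ m)
    (h3 : α' ^ 2 ≤ 2 * m) (hf : f ^ 2 ≤ 121 / 100 * r) (hf' : f' ^ 2 ≤ 121 / 100 * r)
    (r0 : 0 ≤ r) :
    α ^ 2 * f - α' ^ 2 * f'
      ≤ α * α' * (f - f') + (α - α') ^ 2 / (32 * ε) + 64 * ε * (m * r) := by
  have e1 : α ^ 2 * f - α' ^ 2 * f' = α * α' * (f - f') + (α - α') * (α * f + α' * f') := by ring
  have e2 : (α - α') * (α * f + α' * f')
      ≤ (α - α') ^ 2 / (32 * ε) + 8 * ε * (α * f + α' * f') ^ 2 := by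
    have : (α - α') ^ 2 / (32 * ε) + 8 * ε * (α * f + α' * f') ^ 2 - (α - α') * (α * f + α' * f')
        = ((α - α') - 16 * ε * (α * f + α' * f')) ^ 2 / (32 * ε) := by
      field_simp; ring
    have h : 0 ≤ ((α - α') - 16 * ε * (α * f + α' * f')) ^ 2 / (32 * ε) := by positivity
    linarith
  have e3 : (α * f + α' * f') ^ 2 ≤ 8 * (m * r) := by
    have a1 : α ^ 2 * f ^ 2 ≤ m * (121 / 100 * r) := mul_le_mul h1 hf (sq_nonneg _) m0.le
    have a2 : α' ^ 2 * f' ^ 2 ≤ 2 * m * (121 / 100 * r) :=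
      mul_le_mul h3 hf' (sq_nonneg _) (by positivity)
    have a3 := mul_nonneg m0.le r0
    nlinarith [sq_nonneg (α * f - α' * f')]
  have e4 := mul_le_mul_of_nonneg_left e3 (by positivity : 0 ≤ 8 * ε)
  linarith

set_option maxHeartbeats 1000000 in
lemma stab (hK : Good K) {R : ℝ} (R0 : 0 < R) (hR : ∀ x ∈ K, ‖x‖ ≤ R) {m : ι → ℝ}
    (m0 : ∀ i, 0 < m i) {u : E d → ℝ} (hu : Continuous u) {ε : ℝ} (ε0 : 0 < ε)
    (hε : ∀ x ∈ K, |ε * u x| ≤ 1 / 2) {y : ι → E d} {ψ ψ' : ι → ℝ}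
    (h : Opt K m (fun _ => 1) y ψ) (h' : Opt K m (fun x => 1 + ε * u x) y ψ') (v : ι → E d) :
    ∑ i, ∫ x, 1 * wt y ψ i x * ⟪x, v i⟫ ∂(unif K)
      - ∑ i, ∫ x, (1 + ε * u x) * wt y ψ' i x * ⟪x, v i⟫ ∂(unif K)
      ≤ ε * ((∫ x, u x ^ 2 ∂(unif K)) / 2 + 5000 * R ^ 2 * ∑ i, m i * ‖v i‖ ^ 2) := by
  set N := ∫ x, u x ^ 2 ∂(unif K) with hN
  set W := ∑ i, m i * ‖v i‖ ^ 2 with hW
  set m' : ι → ℝ := fun i => ∫ x, wt y ψ' i x ∂(unif K) with hm'
  have hm : ∀ i, ∫ x, wt y ψ i x ∂(unif K) = m i := fun i => by simpa using h i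
  have wp := wt_pos y ψ
  have wp' := wt_pos y ψ'
  have hm1 : ∀ i, m' i ≤ 2 * m i := by
    intro i
    rw [← h' i, ← integral_const_mul]
    refine hK.integral_mono (by fun_prop) (by fun_prop) fun x hx => ?_
    have := neg_abs_le (ε * u x)
    nlinarith [hε x hx, wp' i x]
  have hm2 : ∀ i, 2 / 3 * m i ≤ m' i := by
    intro i
    rw [← h' i, ← integral_const_mul]
    refine hK.integral_mono (by fun_prop) (by fun_prop) fun x hx => ?_
    have := le_abs_self (ε * u x)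
    nlinarith [hε x hx, wp' i x]
  have up : ∀ (χ : ι → ℝ) (i : ι), mass K R y χ i ≤ ∫ x, wt y χ i x ∂(unif K) := by
    intro χ i
    refine hK.integral_mono (by fun_prop) (by fun_prop) fun x _ => ?_
    nlinarith [gw_le_one R x, wt_pos y χ i x]
  have lo : ∀ (χ : ι → ℝ) (i : ι), 10 / 11 * ∫ x, wt y χ i x ∂(unif K) ≤ mass K R y χ i := by
    intro χ i
    rw [← integral_const_mul]
    refine hK.integral_mono (by fun_prop) (by fun_prop) fun x hx => ?_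
    nlinarith [le_gw R0 (hR x hx), wt_pos y χ i x]
  have M1 : ∀ i, mass K R y ψ i ≤ m i := fun i => hm i ▸ up ψ i
  have M2 : ∀ i, 10 / 11 * m i ≤ mass K R y ψ i := fun i => hm i ▸ lo ψ i
  have M3 : ∀ i, mass K R y ψ' i ≤ 2 * m i := fun i => le_trans (up ψ' i) (hm1 i)
  have M4' : ∀ i, 10 / 11 * m' i ≤ mass K R y ψ' i := fun i => lo ψ' i
  have M4 : ∀ i, 3 / 5 * m i ≤ mass K R y ψ' i := fun i => by
    linarith [M4' i, hm2 i, m0 i]
  have hM : ∀ i, 0 < mass K R y ψ i := fun i => by linarith [M2 i, m0 i]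
  have hM' : ∀ i, 0 < mass K R y ψ' i := fun i => by linarith [M4 i, m0 i]
  set α : ι → ℝ := fun i => √(mass K R y ψ i) with hα
  set α' : ι → ℝ := fun i => √(mass K R y ψ' i) with hα'
  have α0 : ∀ i, 0 < α i := fun i => Real.sqrt_pos.2 (hM i)
  have α0' : ∀ i, 0 < α' i := fun i => Real.sqrt_pos.2 (hM' i)
  have αs : ∀ i, α i ^ 2 = mass K R y ψ i := fun i => Real.sq_sqrt (hM i).le
  have αs' : ∀ i, α' i ^ 2 = mass K R y ψ' i := fun i => Real.sq_sqrt (hM' i).le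
  set H := ∑ i, (α i - α' i) ^ 2 / 2 with hH
  set Δ : ι → ℝ := fun i => m i / α i ^ 2 - m' i / α' i ^ 2 with hΔ
  have cancel : ∀ (χ : ι → ℝ) (i : ι) (c : ℝ) (k : E d → ℝ),
      ∫ x, wt y χ i x * gw R x * (c * (k x * fw R x)) ∂(unif K)
        = c * ∫ x, wt y χ i x * k x ∂(unif K) := by
    intro χ i c k
    rw [← integral_const_mul]
    refine integral_congr_ae (Filter.Eventually.of_forall fun x => ?_)
    calc wt y χ i x * gw R x * (c * (k x * fw R x))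
        = c * (wt y χ i x * k x) * (gw R x * fw R x) := by ring
      _ = _ := by rw [gw_mul_fw, mul_one]
  have S1 : ∑ i, α i * α' i * Δ i ^ 2 ≤ H := by
    have := star hK R0 y ψ ψ' hM hM' (Θ := fun i x => 4 * Δ i * (1 * fw R x))
      (fun i => by fun_prop) (fun i => |4 * Δ i| * (11 / (160 * R)))
      (fun i x hx x' hx' => by
        rw [← mul_sub, one_mul, one_mul, mul_assoc |4 * Δ i|]
        refine le_trans (le_abs_self _) ?_
        rw [abs_mul]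
        exact mul_le_mul_of_nonneg_left (abs_fw_sub_le R0 (hR x hx) (hR x' hx')) (abs_nonneg _))
    refine le_trans (Finset.sum_le_sum fun i _ => ?_) this
    refine mul_le_mul_of_nonneg_left ?_ (mul_pos (α0 i) (α0' i)).le
    rw [cancel ψ i _ (fun _ => 1), cancel ψ' i _ (fun _ => 1)]
    simp only [mul_one]
    rw [hm i, ← αs i, ← αs' i, mul_pow, sq_abs]
    have e1 : (4 * Δ i * m i / α i ^ 2 - 4 * Δ i * m' i / α' i ^ 2) / 2 = 2 * Δ i ^ 2 := by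
      rw [mul_div_assoc, mul_div_assoc, ← mul_sub]
      change 4 * Δ i * Δ i / 2 = _
      ring
    have e2 : 8 * R ^ 2 * ((4 * Δ i) ^ 2 * (11 / (160 * R)) ^ 2) = 121 / 200 * Δ i ^ 2 := by
      field_simp; ring
    change _ ≤ (4 * Δ i * m i / α i ^ 2 - 4 * Δ i * m' i / α' i ^ 2) / 2 - _
    rw [e1, e2]
    nlinarith [sq_nonneg (Δ i)]
  have sumq : ∑ i, ∫ x, wt y ψ' i x * u x ^ 2 ∂(unif K) = N := by
    rw [← hK.integral_sum (fun i => by fun_prop)]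
    simp only [← Finset.sum_mul, sum_wt, one_mul, hN]
  have S2 : ∀ i, (m i - m' i) ^ 2 / (2 * m i)
      ≤ ε ^ 2 * ∫ x, wt y ψ' i x * u x ^ 2 ∂(unif K) := by
    intro i
    set U := ∫ x, wt y ψ' i x * u x ∂(unif K) with hU
    have e1 : m i - m' i = ε * U := by
      rw [← h' i, hm', hU, ← integral_const_mul, ← hK.integral_sub (by fun_prop) (by fun_prop)]
      refine integral_congr_ae (Filter.Eventually.of_forall fun x => ?_)
      ring
    set t := U / (2 * m i) with ht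
    have e2 : ∫ x, (2 * t * (wt y ψ' i x * u x) - t ^ 2 * wt y ψ' i x) ∂(unif K)
        ≤ ∫ x, wt y ψ' i x * u x ^ 2 ∂(unif K) := by
      refine hK.integral_mono (by fun_prop) (by fun_prop) fun x _ => ?_
      nlinarith [mul_nonneg (wp' i x).le (sq_nonneg (u x - t))]
    rw [hK.integral_sub (by fun_prop) (by fun_prop), integral_const_mul, integral_const_mul] at e2
    change 2 * t * U - t ^ 2 * m' i ≤ _ at e2
    have e3 : U ^ 2 / (2 * m i) = 2 * t * U - t ^ 2 * (2 * m i) := by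
      have := (m0 i).ne'
      rw [ht]; field_simp; ring
    have e4 := mul_le_mul_of_nonneg_left (hm1 i) (sq_nonneg t)
    rw [e1, mul_pow, mul_div_assoc]
    exact mul_le_mul_of_nonneg_left (by linarith) (sq_nonneg _)
  have S3 : H ≤ 2 * ε ^ 2 * N := by
    have a1 : H ≤ ∑ i, (α i * α' i / 2 * Δ i ^ 2 + (m i - m' i) ^ 2 / (2 * m i)) :=
      Finset.sum_le_sum fun i _ => idx_H (m0 i) (α0 i) (α0' i) (αs i ▸ M1 i) (αs i ▸ M2 i)
        (αs' i ▸ M3 i) (αs' i ▸ M4 i)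
    have a2 := Finset.sum_le_sum fun i (_ : i ∈ Finset.univ) => S2 i
    rw [← Finset.mul_sum, sumq] at a2
    rw [Finset.sum_add_distrib] at a1
    have a3 : ∑ i, α i * α' i / 2 * Δ i ^ 2 = (∑ i, α i * α' i * Δ i ^ 2) / 2 := by
      rw [Finset.sum_div]; exact Finset.sum_congr rfl fun i _ => by ring
    linarith
  set b : ι → ℝ := fun i => ∫ x, wt y ψ i x * ⟪x, v i⟫ ∂(unif K) with hb
  set b' : ι → ℝ := fun i => ∫ x, wt y ψ' i x * ⟪x, v i⟫ ∂(unif K) with hb'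
  have inn : ∀ i, ∀ x ∈ K, |⟪x, v i⟫| ≤ R * ‖v i‖ := fun i x hx =>
    le_trans (abs_real_inner_le_norm _ _) (mul_le_mul_of_nonneg_right (hR x hx) (norm_nonneg _))
  have fb : ∀ (χ : ι → ℝ) (i : ι), 0 < mass K R y χ i →
      ((∫ x, wt y χ i x * ⟪x, v i⟫ ∂(unif K)) / mass K R y χ i) ^ 2
        ≤ 121 / 100 * (R ^ 2 * ‖v i‖ ^ 2) := by
    intro χ i hp
    have c0 : 0 ≤ R * ‖v i‖ := by positivity
    have a1 : ∫ x, wt y χ i x * ⟪x, v i⟫ ∂(unif K)
        ≤ R * ‖v i‖ * ∫ x, wt y χ i x ∂(unif K) := by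
      rw [← integral_const_mul]
      refine hK.integral_mono (by fun_prop) (by fun_prop) fun x hx => ?_
      nlinarith [wt_pos y χ i x, (abs_le.1 (inn i x hx)).2]
    have a2 : -(R * ‖v i‖) * ∫ x, wt y χ i x ∂(unif K)
        ≤ ∫ x, wt y χ i x * ⟪x, v i⟫ ∂(unif K) := by
      rw [← integral_const_mul]
      refine hK.integral_mono (by fun_prop) (by fun_prop) fun x hx => ?_
      nlinarith [wt_pos y χ i x, (abs_le.1 (inn i x hx)).1]
    have a3 := mul_le_mul_of_nonneg_left (lo χ i) c0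
    have a4 : |(∫ x, wt y χ i x * ⟪x, v i⟫ ∂(unif K)) / mass K R y χ i|
        ≤ 11 / 10 * (R * ‖v i‖) := by
      rw [abs_div, abs_of_pos hp, div_le_iff₀ hp, abs_le]
      constructor <;> nlinarith
    have a5 := pow_le_pow_left₀ (abs_nonneg _) a4 2
    rw [sq_abs] at a5
    refine le_trans a5 (le_of_eq ?_)
    ring
  have W0 : 0 ≤ W := Finset.sum_nonneg fun i _ => mul_nonneg (m0 i).le (sq_nonneg _)
  have N0 : 0 ≤ N := hK.integral_nonneg fun x _ => sq_nonneg _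
  have T1 : ∑ i, α i * α' i * (b i / α i ^ 2 - b' i / α' i ^ 2)
      ≤ ε * (N / 8 + 4096 * R ^ 2 * W) := by
    have := star hK R0 y ψ ψ' hM hM' (Θ := fun i x => 32 * ε * (⟪x, v i⟫ * fw R x))
      (fun i => by fun_prop) (fun i => 32 * ε * (2 * ‖v i‖))
      (fun i x hx x' hx' => by
        rw [← mul_sub, mul_assoc (32 * ε)]
        refine mul_le_mul_of_nonneg_left ?_ (by positivity)
        have e : ⟪x, v i⟫ * fw R x - ⟪x', v i⟫ * fw R x'
            = ⟪x - x', v i⟫ * fw R x + ⟪x', v i⟫ * (fw R x - fw R x') := by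
          rw [inner_sub_left]; ring
        have a1 : ⟪x - x', v i⟫ * fw R x ≤ ‖x - x'‖ * ‖v i‖ * (11 / 10) :=
          le_trans (mul_le_mul_of_nonneg_right (real_inner_le_norm _ _) (fw_pos R x).le)
            (mul_le_mul_of_nonneg_left (fw_le R0 (hR x hx)) (by positivity))
        have a2 : ⟪x', v i⟫ * (fw R x - fw R x') ≤ R * ‖v i‖ * (11 / (160 * R) * ‖x - x'‖) := by
          refine le_trans (le_abs_self _) ?_
          rw [abs_mul]
          exact mul_le_mul (inn i x' hx') (abs_fw_sub_le R0 (hR x hx) (hR x' hx')) (abs_nonneg _)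
            (by positivity)
        have a3 : R * ‖v i‖ * (11 / (160 * R) * ‖x - x'‖) = 11 / 160 * (‖x - x'‖ * ‖v i‖) := by
          field_simp
        have a4 : 0 ≤ ‖x - x'‖ * ‖v i‖ := by positivity
        rw [e]
        nlinarith)
    have a1 : ∑ i, (16 * ε * (α i * α' i * (b i / α i ^ 2 - b' i / α' i ^ 2))
        - 65536 * ε ^ 2 * R ^ 2 * (m i * ‖v i‖ ^ 2)) ≤ H := by
      refine le_trans (Finset.sum_le_sum fun i _ => ?_) this
      rw [cancel ψ i _ (fun x => ⟪x, v i⟫), cancel ψ' i _ (fun x => ⟪x, v i⟫)]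
      change _ ≤ α i * α' i * ((32 * ε * b i / mass K R y ψ i
        - 32 * ε * b' i / mass K R y ψ' i) / 2 - _)
      rw [← αs i, ← αs' i]
      have s1 : α i * α' i ≤ 2 * m i := by
        have c1 := αs i ▸ M1 i
        have c2 := αs' i ▸ M3 i
        nlinarith [sq_nonneg (α i - α' i), m0 i]
      have s2 := mul_le_mul_of_nonneg_right s1
        (by positivity : 0 ≤ 32768 * ε ^ 2 * R ^ 2 * ‖v i‖ ^ 2)
      rw [mul_div_assoc, mul_div_assoc]
      nlinarith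
    rw [Finset.sum_sub_distrib, ← Finset.mul_sum, ← Finset.mul_sum] at a1
    have a2 : 16 * ε * ∑ i, α i * α' i * (b i / α i ^ 2 - b' i / α' i ^ 2)
        ≤ 16 * ε * (ε * (N / 8 + 4096 * R ^ 2 * W)) := by
      rw [← hW] at a1
      nlinarith
    exact le_of_mul_le_mul_left a2 (by positivity)
  have T2 : ∑ i, (b i - b' i) ≤ ε * (N / 4 + 4160 * R ^ 2 * W) := by
    have a1 : ∑ i, (b i - b' i) ≤ ∑ i, (α i * α' i * (b i / α i ^ 2 - b' i / α' i ^ 2)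
        + (α i - α' i) ^ 2 / 2 / (16 * ε) + 64 * ε * R ^ 2 * (m i * ‖v i‖ ^ 2)) := by
      refine Finset.sum_le_sum fun i _ => ?_
      have := idx_T (f := b i / α i ^ 2) (f' := b' i / α' i ^ 2) (r := R ^ 2 * ‖v i‖ ^ 2)
        (m0 i) ε0 (αs i ▸ M1 i) (αs' i ▸ M3 i) (αs i ▸ fb ψ i (hM i)) (αs' i ▸ fb ψ' i (hM' i))
        (by positivity)
      rw [mul_div_cancel₀ _ (pow_pos (α0 i) 2).ne', mul_div_cancel₀ _ (pow_pos (α0' i) 2).ne']
        at this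
      refine le_trans this (le_of_eq ?_)
      field_simp; ring
    rw [Finset.sum_add_distrib, Finset.sum_add_distrib, ← Finset.sum_div, ← Finset.mul_sum,
      ← hH, ← hW] at a1
    have a2 : H / (16 * ε) ≤ ε * (N / 8) := by
      rw [div_le_iff₀ (by positivity)]; nlinarith
    nlinarith
  have T3 : ∀ i, b' i - ∫ x, (1 + ε * u x) * wt y ψ' i x * ⟪x, v i⟫ ∂(unif K)
      ≤ ε * ((∫ x, wt y ψ' i x * u x ^ 2 ∂(unif K)) / 8 + 4 * R ^ 2 * (m i * ‖v i‖ ^ 2)) := by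
    intro i
    have a1 : ∫ x, (wt y ψ' i x * ⟪x, v i⟫ - (1 + ε * u x) * wt y ψ' i x * ⟪x, v i⟫) ∂(unif K)
        ≤ ∫ x, (ε / 8 * (wt y ψ' i x * u x ^ 2) + 2 * ε * R ^ 2 * ‖v i‖ ^ 2 * wt y ψ' i x)
          ∂(unif K) := by
      refine hK.integral_mono (by fun_prop) (by fun_prop) fun x hx => ?_
      have c1 : ⟪x, v i⟫ ^ 2 ≤ (R * ‖v i‖) ^ 2 := by
        rw [← sq_abs]; exact pow_le_pow_left₀ (abs_nonneg _) (inn i x hx) 2
      have c2 : -(u x * ⟪x, v i⟫) ≤ u x ^ 2 / 8 + 2 * (R * ‖v i‖) ^ 2 := by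
        nlinarith [sq_nonneg (u x + 4 * ⟪x, v i⟫)]
      have c3 := mul_le_mul_of_nonneg_left c2 (mul_pos ε0 (wp' i x)).le
      nlinarith
    rw [hK.integral_sub (by fun_prop) (by fun_prop), hK.integral_add (by fun_prop) (by fun_prop),
      integral_const_mul, integral_const_mul] at a1
    have a2 := mul_le_mul_of_nonneg_left (hm1 i)
      (by positivity : 0 ≤ 2 * ε * R ^ 2 * ‖v i‖ ^ 2)
    change b' i - _ ≤ _ + _ * m' i at a1
    nlinarith
  have T4 := Finset.sum_le_sum fun i (_ : i ∈ Finset.univ) => T3 i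
  rw [Finset.sum_sub_distrib, ← Finset.mul_sum, Finset.sum_add_distrib, ← Finset.sum_div, sumq,
    ← Finset.mul_sum, ← hW] at T4
  rw [Finset.sum_sub_distrib] at T2
  simp only [one_mul]
  change ∑ i, b i - _ ≤ _
  have c1 : 0 ≤ ε * N := by positivity
  have c2 : 0 ≤ ε * (R ^ 2 * W) := by positivity
  nlinarith

end Vale.Agent.P074
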