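import Vale.Agent.P074.Basic

namespace Vale.Agent.P074

open MeasureTheory Set Metric Filter Topology
open scoped RealInnerProductSpace ENNReal NNReal

variable {d : ℕ}

lemma opt_of_dual {ρ : Measure (E d)} {T : E d → E d} (hT : Measurable T) {g : E d → ℝ≥0∞}
    (hg : Measurable g) (fin : ∫⁻ x, g (T x) ∂ρ ≠ ⊤) {A : Set (E d)} (hA : MeasurableSet A)
    (TA : ∀ x, T x ∈ A)
    (h : ∀ᵐ x ∂ρ, ∀ y ∈ A, ‖x - T x‖ₑ ^ 2 + g y ≤ ‖x - y‖ₑ ^ 2 + g (T x)) :
    IsOptimalMap ρ (ρ.map T) T := by
  refine ⟨hT, rfl, fun S hS hm => ?_⟩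
  have a1 : ∀ᵐ x ∂ρ, S x ∈ A := by
    refine ae_of_ae_map (p := fun y => y ∈ A) hS.aemeasurable ?_
    rw [hm]
    exact (ae_map_iff (p := fun y => y ∈ A) hT.aemeasurable hA).2 (Eventually.of_forall TA)
  have a2 : ∫⁻ x, ‖x - T x‖ₑ ^ 2 + g (S x) ∂ρ ≤ ∫⁻ x, ‖x - S x‖ₑ ^ 2 + g (T x) ∂ρ := by
    refine lintegral_mono_ae ?_
    filter_upwards [a1, h] with x h1 h2 using h2 _ h1
  have m1 : Measurable fun x => g (S x) := hg.comp hS
  have m2 : Measurable fun x => g (T x) := hg.comp hT
  rw [lintegral_add_right _ m1, lintegral_add_right _ m2,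
    ← lintegral_map hg hS, hm, lintegral_map hg hT] at a2
  exact (ENNReal.add_le_add_iff_right fin).1 a2

def box (a b : Fin d → ℝ) : Set (E d) := {x | ∀ i, a i ≤ x i ∧ x i ≤ b i}

lemma box_eq (a b : Fin d → ℝ) : box a b = WithLp.ofLp ⁻¹' Icc a b := by
  ext x
  simp [box, Pi.le_def, forall_and]

lemma box_meas (a b : Fin d → ℝ) : MeasurableSet (box a b) := by
  rw [box_eq]
  exact measurableSet_Icc.preimage (PiLp.volume_preserving_ofLp (Fin d)).measurable

lemma vol_box (a b : Fin d → ℝ) : volume (box a b) = ∏ i, ENNReal.ofReal (b i - a i) := by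
  rw [box_eq, (PiLp.volume_preserving_ofLp (Fin d)).measure_preimage
    measurableSet_Icc.nullMeasurableSet, Real.volume_Icc_pi]

def cube (d : ℕ) : Set (E d) := box (fun _ => -1) (fun _ => 1)

lemma ball_sub_cube : ball (0 : E d) 1 ⊆ cube d := by
  intro x hx i
  rw [mem_ball_zero_iff] at hx
  have := PiLp.norm_apply_le x i
  rw [Real.norm_eq_abs] at this
  exact abs_le.1 (by linarith)

lemma cube_interior : (interior (cube d)).Nonempty :=
  ⟨0, interior_maximal ball_sub_cube isOpen_ball (mem_ball_self one_pos)⟩

lemma cube_good : Good (cube d) := by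
  refine ⟨?_, ?_, (Measure.measure_pos_of_nonempty_interior _ cube_interior).ne'⟩
  · rw [cube, box_eq]
    exact (PiLp.homeomorph 2 (fun _ : Fin d => ℝ)).isCompact_preimage.2 isCompact_Icc
  · intro x hx y hy s t s0 t0 h i
    have h1 := hx i
    have h2 := hy i
    simp only [PiLp.add_apply, PiLp.smul_apply, smul_eq_mul]
    constructor <;> nlinarith [h1.1, h1.2, h2.1, h2.2]

lemma unif_box (a b : Fin d → ℝ) (ha : ∀ i, -1 ≤ a i) (hb : ∀ i, b i ≤ 1) :
    unif (cube d) (box a b) = ∏ i, ENNReal.ofReal ((b i - a i) / 2) := by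
  have h : box a b ⊆ cube d := fun x hx i => ⟨(ha i).trans (hx i).1, (hx i).2.trans (hb i)⟩
  unfold unif
  rw [Measure.smul_apply, Measure.restrict_apply (box_meas a b), inter_eq_left.2 h, smul_eq_mul,
    cube, vol_box, vol_box, ← ENNReal.div_eq_inv_mul, ← ENNReal.prod_div_distrib_of_ne_top
      (fun _ _ => ENNReal.ofReal_ne_top)]
  refine Finset.prod_congr rfl fun i _ => ?_
  rw [ENNReal.ofReal_div_of_pos (by norm_num)]
  norm_num

noncomputable def refl1 (j : Fin d) : E d ≃ₗᵢ[ℝ] E d :=
  LinearIsometryEquiv.piLpCongrRight 2 fun i =>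
    if i = j then LinearIsometryEquiv.neg ℝ else LinearIsometryEquiv.refl ℝ ℝ

lemma refl1_apply (j : Fin d) (x : E d) (i : Fin d) :
    refl1 j x i = if i = j then -x i else x i := by
  unfold refl1
  rw [LinearIsometryEquiv.piLpCongrRight_apply]
  by_cases h : i = j <;> simp [h]

lemma refl1_pres (j : Fin d) : (unif (cube d)).map (refl1 j) = unif (cube d) := by
  have h : refl1 j ⁻¹' cube d = cube d := by
    ext x
    simp only [mem_preimage, cube, box, mem_ofPred_eq, refl1_apply]
    refine forall_congr' fun i => ?_
    split_ifs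
    · constructor <;> rintro ⟨h1, h2⟩ <;> constructor <;> linarith
    · rfl
  have := ((refl1 j).measurePreserving.restrict_preimage cube_good.meas).map_eq
  rw [h] at this
  unfold unif
  rw [Measure.map_smul, this]

noncomputable def ex (i j : Fin d) (c η : ℝ) (x : E d) : E d :=
  if c + η * x j < x i then EuclideanSpace.single i 1
  else if c + η * x j < -x i then -EuclideanSpace.single i 1 else η • EuclideanSpace.single j 1

lemma ex_meas (i j : Fin d) (c η : ℝ) : Measurable (ex i j c η) := by
  unfold ex
  refine Measurable.ite (measurableSet_lt (by fun_prop) (by fun_prop)) measurable_const ?_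
  exact Measurable.ite (measurableSet_lt (by fun_prop) (by fun_prop)) measurable_const
    measurable_const

lemma ex_mem (i j : Fin d) (c η : ℝ) (x : E d) : ex i j c η x ∈
    ({EuclideanSpace.single i 1, -EuclideanSpace.single i 1, η • EuclideanSpace.single j 1}
      : Set (E d)) := by
  unfold ex
  split_ifs <;> simp

lemma ex_norm (i j : Fin d) (c : ℝ) {η : ℝ} (h : |η| ≤ 1) (x : E d) : ‖ex i j c η x‖ ≤ 1 := by
  rcases ex_mem i j c η x with h' | h' | h' <;> rw [h'] <;> simp [norm_smul, h]

lemma ex_opt {i j : Fin d} (hij : i ≠ j) {c η : ℝ} (hη : |η| ≤ c) (c1 : c ≤ 1) :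
    IsOptimalMap (unif (cube d)) ((unif (cube d)).map (ex i j c η)) (ex i j c η) := by
  have := (cube_good (d := d)).prob
  have c0 : 0 ≤ c := (abs_nonneg _).trans hη
  set g : E d → ℝ := fun y => ‖y‖ ^ 2 + 2 * (c * (1 - y i ^ 2)) with hg
  have g0 : ∀ y ∈ ({EuclideanSpace.single i 1, -EuclideanSpace.single i 1,
      η • EuclideanSpace.single j 1} : Set (E d)), 0 ≤ g y ∧ g y ≤ 3 := by
    rintro y (h | h | h) <;> rw [h] <;> simp [hg, norm_smul, hij]
    constructor
    · positivity
    · have : η ^ 2 ≤ 1 := by
        rw [← sq_abs]; nlinarith [abs_nonneg η]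
      linarith
  refine opt_of_dual (ex_meas i j c η) (g := fun y => ENNReal.ofReal (g y))
    (by rw [hg]; fun_prop) ?_ (Set.toFinite _).measurableSet (ex_mem i j c η) ?_
  · refine ne_top_of_le_ne_top ?_ (lintegral_mono fun x =>
      ENNReal.ofReal_le_ofReal (g0 _ (ex_mem i j c η x)).2)
    simp
  · filter_upwards [cube_good.ae_mem] with x hx y hy
    have e : ∀ z : E d, ‖z‖ₑ ^ 2 = ENNReal.ofReal (‖z‖ ^ 2) := fun z => by
      rw [ENNReal.ofReal_pow (norm_nonneg _), ofReal_norm]
    rw [e, e, ← ENNReal.ofReal_add (sq_nonneg _) (g0 y hy).1,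
      ← ENNReal.ofReal_add (sq_nonneg _) (g0 _ (ex_mem i j c η x)).1]
    refine ENNReal.ofReal_le_ofReal ?_
    have key : ⟪x, y⟫ + c * (1 - y i ^ 2)
        ≤ ⟪x, ex i j c η x⟫ + c * (1 - ex i j c η x i ^ 2) := by
      have h1 : 0 ≤ c + η * x j := by
        have : |η * x j| ≤ c := by
          rw [abs_mul]
          nlinarith [abs_nonneg η, abs_nonneg (x j), abs_le.2 (hx j)]
        linarith [neg_abs_le (η * x j)]
      unfold ex
      rcases hy with h | h | h <;> rw [h] <;> split_ifs <;>
        simp [EuclideanSpace.inner_single_right, inner_smul_right, hij] <;> linarith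
    simp only [hg, norm_sub_sq_real]
    linarith

theorem not_admissible (hd : 2 ≤ d) {α : ℝ} (hα : 1 / 3 < α) : ¬ Admissible d α := by
  intro h
  have hK := cube_good (d := d)
  have := hK.prob
  obtain ⟨C, hC⟩ := h (cube d) hK.compact hK.convex cube_interior (closedBall 0 1)
    (isCompact_closedBall _ _) ⟨0, by simp⟩
  set i : Fin d := ⟨0, by omega⟩ with hi
  set j : Fin d := ⟨1, by omega⟩ with hj
  have hij : i ≠ j := by simp [hi, hj]
  have key : ∀ c : ℝ, 0 < c → c ≤ 1 / 2 → c / 16 ≤ C ^ 2 * (8 * c ^ 3) ^ α := by
    intro c c0 c1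
    have m1 := ex_meas i j c c
    have m2 := ex_meas i j c (-c)
    have supp : ∀ η, |η| ≤ 1 → (unif (cube d)).map (ex i j c η) (closedBall 0 1)ᶜ = 0 := by
      intro η hη
      rw [Measure.map_apply (ex_meas _ _ _ _) measurableSet_closedBall.compl]
      convert measure_empty (μ := unif (cube d))
      ext x
      simpa using ex_norm i j c hη x
    have h1 := hC _ _ (Measure.isProbabilityMeasure_map m1.aemeasurable)
      (Measure.isProbabilityMeasure_map m2.aemeasurable)
      (supp c (by rw [abs_of_pos c0]; linarith)) (supp (-c) (by rw [abs_neg, abs_of_pos c0]; linarith))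
      _ _ (ex_opt hij (abs_of_pos c0).le (by linarith))
      (ex_opt hij (by rw [abs_neg, abs_of_pos c0]) (by linarith))
    have mr : Measurable (refl1 j) := (refl1 j).continuous.measurable
    have mp : Measurable fun x => (ex i j c c x, ex i j c (-c) (refl1 j x)) :=
      m1.prodMk (m2.comp mr)
    have w1 : W2 ((unif (cube d)).map (ex i j c c)) ((unif (cube d)).map (ex i j c (-c)))
        ≤ ENNReal.ofReal (8 * c ^ 3) ^ (1 / 2 : ℝ) := by
      refine iInf₂_le_of_le ((unif (cube d)).map
        fun x => (ex i j c c x, ex i j c (-c) (refl1 j x))) ⟨?_, ?_⟩ ?_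
      · rw [Measure.map_map measurable_fst mp]
        rfl
      · rw [Measure.map_map measurable_snd mp]
        conv_rhs => rw [← refl1_pres j, Measure.map_map m2 mr]
        rfl
      · refine ENNReal.rpow_le_rpow ?_ (by norm_num)
        rw [lintegral_map (by fun_prop) mp]
        have hb := unif_box (Function.update (fun _ => -1) i (-(2 * c)))
          (Function.update (fun _ => 1) i (2 * c))
          (fun k => by rw [Function.update_apply]; split_ifs <;> linarith)
          (fun k => by rw [Function.update_apply]; split_ifs <;> linarith)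
        rw [Fintype.prod_eq_single i (fun k hk => by simp [hk])] at hb
        simp only [Function.update_self] at hb
        calc _ ≤ ∫⁻ x, (box (Function.update (fun _ => -1) i (-(2 * c)))
              (Function.update (fun _ => 1) i (2 * c))).indicator
              (fun _ => ENNReal.ofReal ((2 * c) ^ 2)) x ∂(unif (cube d)) := by
              refine lintegral_mono_ae ?_
              filter_upwards [hK.ae_mem] with x hx
              unfold ex
              simp only [refl1_apply, if_true, if_neg hij, neg_mul_neg]
              split_ifs with a1 a2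
              · simp
              · simp
              · rw [indicator_of_mem]
                · rw [← sub_smul, ENNReal.ofReal_pow (by positivity), ← ofReal_norm, norm_smul,
                    Real.norm_of_nonneg (by linarith)]
                  simp [two_mul]
                · intro k
                  rw [Function.update_apply, Function.update_apply]
                  split_ifs with hk
                  · rw [hk]
                    constructor <;> nlinarith [(hx j).2]
                  · exact hx k
          _ = ENNReal.ofReal (8 * c ^ 3) := by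
              rw [lintegral_indicator_const (box_meas _ _), hb,
                ← ENNReal.ofReal_mul (by positivity)]
              congr 1
              ring
    have w2 : ENNReal.ofReal (c / 16)
        ≤ ∫⁻ x, ‖ex i j c c x - ex i j c (-c) x‖ₑ ^ 2 ∂(unif (cube d)) := by
      have hb := unif_box (Function.update (Function.update (fun _ => -1) i c) j (1 / 2))
        (Function.update (fun _ => 1) i (3 / 2 * c))
        (fun k => by simp only [Function.update_apply]; split_ifs <;> linarith)
        (fun k => by rw [Function.update_apply]; split_ifs <;> linarith)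
      rw [Fintype.prod_eq_mul i j hij (fun k hk => by simp [hk.1, hk.2])] at hb
      simp only [Function.update_self, Function.update_of_ne hij,
        Function.update_of_ne hij.symm] at hb
      calc ENNReal.ofReal (c / 16) = ∫⁻ x, (box (Function.update (Function.update (fun _ => -1) i c)
              j (1 / 2)) (Function.update (fun _ => 1) i (3 / 2 * c))).indicator
              (fun _ => 1) x ∂(unif (cube d)) := by
            rw [lintegral_indicator_const (box_meas _ _), hb, one_mul,
              ← ENNReal.ofReal_mul (by linarith)]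
            congr 1
            ring
        _ ≤ _ := by
            refine lintegral_mono fun x => indicator_apply_le' (fun hx => ?_) fun _ => zero_le
            have a1 := hx i
            have a2 := hx j
            simp only [Function.update_self, Function.update_of_ne hij,
              Function.update_of_ne hij.symm] at a1 a2
            unfold ex
            rw [if_neg (by nlinarith [a1.2, a2.1]), if_neg (by nlinarith [a1.1, a2.1]),
              if_pos (by nlinarith [a1.1, a2.1])]
            refine one_le_pow₀ ?_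
            have := PiLp.norm_apply_le (c • (EuclideanSpace.single j (1 : ℝ) : E d)
              - EuclideanSpace.single i 1) i
            rw [← ofReal_norm, ENNReal.one_le_ofReal]
            simpa [hij] using this
    have h2 : ENNReal.ofReal (c / 16) ^ (1 / 2 : ℝ)
        ≤ C * (ENNReal.ofReal (8 * c ^ 3) ^ (1 / 2 : ℝ)) ^ α :=
      le_trans (ENNReal.rpow_le_rpow w2 (by norm_num)) (le_trans h1
        (mul_le_mul_right (ENNReal.rpow_le_rpow w1 (by linarith)) _))
    have h3 := ENNReal.rpow_le_rpow h2 (by norm_num : (0 : ℝ) ≤ 2)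
    rw [ENNReal.mul_rpow_of_nonneg _ _ (by norm_num), ← ENNReal.rpow_mul, ← ENNReal.rpow_mul,
      ← ENNReal.rpow_mul, (by ring : 1 / 2 * (α * 2) = α), (by norm_num : (1 / 2 * 2 : ℝ) = 1),
      ENNReal.rpow_one, ENNReal.ofReal_rpow_of_nonneg (by positivity) (by linarith),
      ← ENNReal.ofReal_coe_nnreal, ENNReal.ofReal_rpow_of_nonneg C.coe_nonneg (by norm_num),
      ← ENNReal.ofReal_mul (by positivity), ENNReal.ofReal_le_ofReal_iff (by positivity),
      Real.rpow_two] at h3
    exact h3
  have p0 : 0 < 3 * α - 1 := by linarith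
  have lim : Tendsto (fun c : ℝ => (C : ℝ) ^ 2 * 8 ^ α * c ^ (3 * α - 1)) (𝓝[>] 0)
      (𝓝 ((C : ℝ) ^ 2 * 8 ^ α * (0 : ℝ) ^ (3 * α - 1))) :=
    ((Real.continuousAt_rpow_const 0 _ (Or.inr p0.le)).tendsto.mono_left
      nhdsWithin_le_nhds).const_mul _
  rw [Real.zero_rpow p0.ne', mul_zero] at lim
  have : (1 / 16 : ℝ) ≤ 0 := by
    refine ge_of_tendsto lim ?_
    filter_upwards [Ioc_mem_nhdsGT (by norm_num : (0 : ℝ) < 1 / 2)] with c hc
    have := key c hc.1 hc.2
    have c0 := hc.1
    rw [Real.mul_rpow (by norm_num) (by positivity), ← Real.rpow_natCast c,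
      ← Real.rpow_mul c0.le] at this
    rw [Real.rpow_sub_one c0.ne', ← mul_div_assoc, le_div_iff₀ c0]
    push_cast at this
    linarith
  linarith

end Vale.Agent.P074
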